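import Vale.Agent.P192.H663.Defs

/-!
# P192: sections of automorphisms of the tree of words

`sect g v` is the section of `g` at the word `v`: `g (v ++ w) = g v ++ sect g v w`.  `ssPow X m`
is the resulting action on the words over the alphabet of words of length `m`.
-/

namespace Vale.Agent.P192

variable {X : Type*}

theorem inv_app {α : Type*} (e : Equiv.Perm α) (a : α) : e⁻¹ (e a) = a := by
  simp only [Equiv.Perm.coe_inv, Equiv.symm_apply_apply]

theorem app_inv {α : Type*} (e : Equiv.Perm α) (a : α) : e (e⁻¹ a) = a := by
  simp only [Equiv.Perm.coe_inv, Equiv.apply_symm_apply]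

theorem ta_length (g : TreeAut X) (w : List X) :
    ((g : Equiv.Perm (List X)) w).length = w.length := g.2.1 w

theorem ta_prefix (g : TreeAut X) (v w : List X) :
    (g : Equiv.Perm (List X)) v <+: (g : Equiv.Perm (List X)) w ↔ v <+: w := g.2.2 v w

theorem ta_append (g : TreeAut X) (v w : List X) :
    (g : Equiv.Perm (List X)) (v ++ w) =
      (g : Equiv.Perm (List X)) v ++ ((g : Equiv.Perm (List X)) (v ++ w)).drop v.length := by
  have h : (g : Equiv.Perm (List X)) v <+: (g : Equiv.Perm (List X)) (v ++ w) :=
    (ta_prefix g v (v ++ w)).2 (List.prefix_append v w)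
  have h' := List.prefix_iff_eq_append.1 h
  rw [ta_length g] at h'
  exact h'.symm

/-- The section of `g` at the word `v`, as a permutation of words. -/
def sectPerm (g : TreeAut X) (v : List X) : Equiv.Perm (List X) where
  toFun w := ((g : Equiv.Perm (List X)) (v ++ w)).drop v.length
  invFun w := ((g⁻¹ : Equiv.Perm (List X)) ((g : Equiv.Perm (List X)) v ++ w)).drop v.length
  left_inv w := by
    show ((g⁻¹ : Equiv.Perm (List X)) ((g : Equiv.Perm (List X)) v ++
      ((g : Equiv.Perm (List X)) (v ++ w)).drop v.length)).drop v.length = w
    rw [← ta_append g v w, inv_app, List.drop_left]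
  right_inv w := by
    show ((g : Equiv.Perm (List X)) (v ++
      ((g⁻¹ : Equiv.Perm (List X)) ((g : Equiv.Perm (List X)) v ++ w)).drop v.length)).drop
        v.length = w
    have h := ta_append g⁻¹ ((g : Equiv.Perm (List X)) v) w
    rw [ta_length g] at h
    have h2 : ((g⁻¹ : TreeAut X) : Equiv.Perm (List X)) ((g : Equiv.Perm (List X)) v) = v := by
      rw [Subgroup.coe_inv, inv_app]
    rw [h2] at h
    rw [Subgroup.coe_inv] at h
    rw [← h, app_inv]
    have h3 : v.length = ((g : Equiv.Perm (List X)) v).length := (ta_length g v).symm
    rw [h3, List.drop_left]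

/-- The section of `g` at the word `v`. -/
def sect (g : TreeAut X) (v : List X) : TreeAut X :=
  ⟨sectPerm g v, by
    refine ⟨fun w => ?_, fun a b => ?_⟩
    · show (((g : Equiv.Perm (List X)) (v ++ w)).drop v.length).length = w.length
      rw [List.length_drop, ta_length g, List.length_append]
      omega
    · show ((g : Equiv.Perm (List X)) (v ++ a)).drop v.length <+:
        ((g : Equiv.Perm (List X)) (v ++ b)).drop v.length ↔ a <+: b
      rw [← List.prefix_append_right_inj ((g : Equiv.Perm (List X)) v), ← ta_append g,
        ← ta_append g, ta_prefix g, List.prefix_append_right_inj]⟩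

theorem sect_spec (g : TreeAut X) (v w : List X) :
    (g : Equiv.Perm (List X)) (v ++ w) =
      (g : Equiv.Perm (List X)) v ++ (sect g v : Equiv.Perm (List X)) w :=
  ta_append g v w

theorem ta_nil (g : TreeAut X) : (g : Equiv.Perm (List X)) [] = [] :=
  List.length_eq_zero_iff.1 (ta_length g [])

theorem ta_ext {g h : TreeAut X}
    (H : ∀ w, (g : Equiv.Perm (List X)) w = (h : Equiv.Perm (List X)) w) : g = h :=
  Subtype.ext (Equiv.ext H)

theorem sect_nil (g : TreeAut X) : sect g [] = g := by
  apply ta_ext
  intro w
  have h := sect_spec g [] w
  rw [ta_nil g, List.nil_append, List.nil_append] at h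
  exact h.symm

theorem sect_one (v : List X) : sect (1 : TreeAut X) v = 1 := by
  apply ta_ext
  intro w
  have h := sect_spec 1 v w
  simp only [Subgroup.coe_one, Equiv.Perm.coe_one, id_eq] at h ⊢
  exact (List.append_cancel_left h).symm

theorem sect_append (g : TreeAut X) (v w : List X) :
    sect g (v ++ w) = sect (sect g v) w := by
  apply ta_ext
  intro u
  have h1 := sect_spec g (v ++ w) u
  have h2 := sect_spec g v (w ++ u)
  have h3 := sect_spec (sect g v) w u
  have h4 := sect_spec g v w
  rw [List.append_assoc, h2, h3, h4, List.append_assoc] at h1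
  exact (List.append_cancel_left (List.append_cancel_left h1)).symm

theorem sect_mul (g h : TreeAut X) (v : List X) :
    sect (g * h) v = sect g ((h : Equiv.Perm (List X)) v) * sect h v := by
  apply ta_ext
  intro u
  have h1 := sect_spec (g * h) v u
  have h2 := sect_spec h v u
  have h3 := sect_spec g ((h : Equiv.Perm (List X)) v) ((sect h v : Equiv.Perm (List X)) u)
  rw [Subgroup.coe_mul, Equiv.Perm.mul_apply, Equiv.Perm.mul_apply, h2, h3] at h1
  rw [Subgroup.coe_mul, Equiv.Perm.mul_apply]
  exact (List.append_cancel_left h1).symm

/-- The action of an automorphism on the words of length `m`. -/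
def levelPerm (X : Type*) (m : ℕ) : TreeAut X →* Equiv.Perm {v : List X // v.length = m} where
  toFun g :=
    { toFun := fun y => ⟨(g : Equiv.Perm (List X)) y.1, by rw [ta_length g]; exact y.2⟩
      invFun := fun y => ⟨((g⁻¹ : TreeAut X) : Equiv.Perm (List X)) y.1, by
        rw [ta_length]; exact y.2⟩
      left_inv := fun y => by
        apply Subtype.ext
        show ((g⁻¹ : TreeAut X) : Equiv.Perm (List X)) ((g : Equiv.Perm (List X)) y.1) = y.1
        rw [Subgroup.coe_inv, inv_app]
      right_inv := fun y => by
        apply Subtype.ext
        show (g : Equiv.Perm (List X)) (((g⁻¹ : TreeAut X) : Equiv.Perm (List X)) y.1) = y.1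
        rw [Subgroup.coe_inv, app_inv] }
  map_one' := by
    apply Equiv.ext
    intro y
    rfl
  map_mul' g h := by
    apply Equiv.ext
    intro y
    rfl

theorem levelPerm_apply (m : ℕ) (g : TreeAut X) (y : {v : List X // v.length = m}) :
    (levelPerm X m g y).1 = (g : Equiv.Perm (List X)) y.1 := rfl

/-- The action on words over the alphabet of words of length `m`. -/
def ssPow (X : Type*) (m : ℕ) : SS (TreeAut X) {v : List X // v.length = m} where
  σ := levelPerm X m
  sec g y := sect g y.1
  sec_mul g h y := sect_mul g h y.1

theorem ssPow_sec (m : ℕ) (g : TreeAut X) (y : {v : List X // v.length = m}) :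
    (ssPow X m).sec g y = sect g y.1 := rfl

theorem ssPow_σ (m : ℕ) (g : TreeAut X) : (ssPow X m).σ g = levelPerm X m g := rfl

instance ssPow_finite [Finite X] (m : ℕ) : Finite {v : List X // v.length = m} :=
  (List.finite_length_eq X m).to_subtype

/-- The action on words over the alphabet of words of length `m` is faithful. -/
theorem ssPow_faithful (m : ℕ) (hm : 1 ≤ m) : (ssPow X m).Faithful := by
  -- the automorphism fixes all words of length `m * n`
  have key : ∀ n : ℕ, ∀ g : TreeAut X,
      (∀ v : List {v : List X // v.length = m}, (ssPow X m).σ ((ssPow X m).secL g v) = 1) →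
      ∀ w : List X, w.length = m * n → (g : Equiv.Perm (List X)) w = w := by
    intro n
    induction n with
    | zero =>
      intro g _ w hw
      have hw' : w = [] := List.length_eq_zero_iff.1 (by simpa using hw)
      rw [hw', ta_nil g]
    | succ n ih =>
      intro g hg w hw
      have hlen : (w.take m).length = m := by
        rw [List.length_take, hw]
        apply min_eq_left
        calc m = m * 1 := (mul_one m).symm
          _ ≤ m * (n + 1) := Nat.mul_le_mul_left m (by omega)
      have h0 : (g : Equiv.Perm (List X)) (w.take m) = w.take m := by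
        have h := hg []
        have h' := congrArg (fun e : Equiv.Perm {v : List X // v.length = m} =>
          (e ⟨w.take m, hlen⟩).1) h
        exact h'
      have h1 : (sect g (w.take m) : Equiv.Perm (List X)) (w.drop m) = w.drop m := by
        apply ih
        · intro v
          exact hg (⟨w.take m, hlen⟩ :: v)
        · rw [List.length_drop, hw, Nat.mul_succ]
          omega
      have h2 := sect_spec g (w.take m) (w.drop m)
      rw [h0, h1, List.take_append_drop] at h2
      exact h2
  intro g hg
  apply ta_ext
  intro w
  show (g : Equiv.Perm (List X)) w = w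
  cases w with
  | nil => exact ta_nil g
  | cons x w =>
    set u : List X := x :: w with hu
    -- extend `u` to a word of length `m * u.length`
    have hle : u.length ≤ m * u.length := Nat.le_mul_of_pos_left _ (by omega)
    set t : List X := List.replicate (m * u.length - u.length) x with ht
    have hlen : (u ++ t).length = m * u.length := by
      rw [List.length_append, ht, List.length_replicate]
      omega
    have h1 := key u.length g hg (u ++ t) hlen
    rw [sect_spec] at h1
    exact (List.append_inj h1 (ta_length g u)).1

end Vale.Agent.P192
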