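import Vale.Agent.P192.H491.Tri
import Vale.Agent.P192.H663.Calc

/-!
# P192: the group of all finite-state automorphisms of polynomial activity
-/

namespace Vale.Agent.P192

variable {X : Type*}

theorem sect_inv (g : TreeAut X) (v : List X) :
    sect g⁻¹ ((g : Equiv.Perm (List X)) v) = (sect g v)⁻¹ := by
  have h := sect_mul g⁻¹ g v
  rw [inv_mul_cancel, sect_one] at h
  exact (inv_eq_of_mul_eq_one_left h.symm).symm

theorem words_finite [Finite X] (n : ℕ) (P : List X → Prop) :
    {v : List X | v.length = n ∧ P v}.Finite :=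
  (List.finite_length_eq X n).subset fun _ hv => hv.1

/-- The finite-state automorphisms of polynomial activity form a group. -/
def PolyAut (X : Type*) [Finite X] : Subgroup (TreeAut X) where
  carrier := {g | FiniteState g ∧ PolyActivity g}
  one_mem' := by
    refine ⟨?_, 0, 0, fun n => ?_⟩
    · apply (Set.finite_singleton (1 : TreeAut X)).subset
      rintro _ ⟨v, rfl⟩
      exact sect_one v
    · have : {v : List X | v.length = n ∧ sect (1 : TreeAut X) v ≠ 1} = ∅ := by
        apply Set.eq_empty_iff_forall_notMem.2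
        intro v hv
        exact hv.2 (sect_one v)
      rw [this, Set.ncard_empty]
      exact Nat.zero_le _
  mul_mem' := by
    rintro g h ⟨hg, C, k, hC⟩ ⟨hh, D, l, hD⟩
    refine ⟨?_, C + D, k + l, fun n => ?_⟩
    · apply (Set.Finite.mul hg hh).subset
      rintro _ ⟨v, rfl⟩
      rw [sect_mul]
      exact Set.mul_mem_mul ⟨_, rfl⟩ ⟨_, rfl⟩
    · have h1 : {v : List X | v.length = n ∧ sect (g * h) v ≠ 1} ⊆
          {v : List X | v.length = n ∧ sect g ((h : Equiv.Perm (List X)) v) ≠ 1} ∪
            {v : List X | v.length = n ∧ sect h v ≠ 1} := by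
        rintro v ⟨hv, hne⟩
        by_cases h2 : sect g ((h : Equiv.Perm (List X)) v) = 1
        · right
          refine ⟨hv, fun h3 => hne ?_⟩
          rw [sect_mul, h2, h3, one_mul]
        · left
          exact ⟨hv, h2⟩
      have h2 : {v : List X | v.length = n ∧ sect g ((h : Equiv.Perm (List X)) v) ≠ 1}.ncard ≤
          {v : List X | v.length = n ∧ sect g v ≠ 1}.ncard := by
        refine Set.ncard_le_ncard_of_injOn (fun v => (h : Equiv.Perm (List X)) v) ?_ ?_
          (words_finite n _)
        · intro v hv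
          exact ⟨by rw [ta_length]; exact hv.1, hv.2⟩
        · intro v _ w _ hvw
          exact (h : Equiv.Perm (List X)).injective hvw
      have h3 : (n + 1) ^ k ≤ (n + 1) ^ (k + l) :=
        Nat.pow_le_pow_right (Nat.succ_pos n) (Nat.le_add_right k l)
      have h4 : (n + 1) ^ l ≤ (n + 1) ^ (k + l) :=
        Nat.pow_le_pow_right (Nat.succ_pos n) (Nat.le_add_left l k)
      calc {v : List X | v.length = n ∧ sect (g * h) v ≠ 1}.ncard
          ≤ _ := Set.ncard_le_ncard h1 ((words_finite n _).union (words_finite n _))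
        _ ≤ _ := Set.ncard_union_le _ _
        _ ≤ C * (n + 1) ^ k + D * (n + 1) ^ l := Nat.add_le_add (h2.trans (hC n)) (hD n)
        _ ≤ C * (n + 1) ^ (k + l) + D * (n + 1) ^ (k + l) :=
            Nat.add_le_add (Nat.mul_le_mul_left C h3) (Nat.mul_le_mul_left D h4)
        _ = (C + D) * (n + 1) ^ (k + l) := (add_mul _ _ _).symm
  inv_mem' := by
    rintro g ⟨hg, C, k, hC⟩
    refine ⟨?_, C, k, fun n => ?_⟩
    · apply (Set.Finite.inv hg).subset
      rintro _ ⟨v, rfl⟩
      refine ⟨((g⁻¹ : TreeAut X) : Equiv.Perm (List X)) v, ?_⟩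
      have h2 := sect_inv g (((g⁻¹ : TreeAut X) : Equiv.Perm (List X)) v)
      rw [Subgroup.coe_inv, app_inv] at h2
      rw [Subgroup.coe_inv, h2, inv_inv]
    · refine le_trans ?_ (hC n)
      refine Set.ncard_le_ncard_of_injOn
        (fun v => ((g⁻¹ : TreeAut X) : Equiv.Perm (List X)) v) ?_ ?_ (words_finite n _)
      · rintro v ⟨hv, hne⟩
        refine ⟨by rw [ta_length]; exact hv, fun h => hne ?_⟩
        have h2 := sect_inv g (((g⁻¹ : TreeAut X) : Equiv.Perm (List X)) v)
        rw [h, Subgroup.coe_inv, app_inv, inv_one] at h2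
        exact h2
      · intro v _ w _ hvw
        exact ((g⁻¹ : TreeAut X) : Equiv.Perm (List X)).injective hvw

/-- Local property: it is enough to treat the subgroups generated by finite subsets of a
generating set. -/
theorem fpb_closure_of_finite {G : Type*} [Group G] (P : Set G)
    (h : ∀ A : Set G, A ⊆ P → A.Finite → FPB (Subgroup.closure A)) :
    FPB (Subgroup.closure P) := by
  have hmem : ∀ x ∈ Subgroup.closure P, ∃ B : Set G, B ⊆ P ∧ B.Finite ∧
      x ∈ Subgroup.closure B := by
    intro x hx
    induction hx using Subgroup.closure_induction with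
    | mem x hx =>
      exact ⟨{x}, Set.singleton_subset_iff.2 hx, Set.finite_singleton x,
        Subgroup.subset_closure rfl⟩
    | one => exact ⟨∅, Set.empty_subset _, Set.finite_empty, Subgroup.one_mem _⟩
    | mul x y _ _ hx hy =>
      obtain ⟨B, hB, hBf, hxB⟩ := hx
      obtain ⟨B', hB', hBf', hyB⟩ := hy
      exact ⟨B ∪ B', Set.union_subset hB hB', hBf.union hBf',
        Subgroup.mul_mem _ (Subgroup.closure_mono Set.subset_union_left hxB)
          (Subgroup.closure_mono Set.subset_union_right hyB)⟩
    | inv x _ hx =>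
      obtain ⟨B, hB, hBf, hxB⟩ := hx
      exact ⟨B, hB, hBf, Subgroup.inv_mem _ hxB⟩
  refine fpb_of_local fun A hA => ?_
  choose f hf using fun a : Subgroup.closure P => hmem a.1 a.2
  set B : Set G := ⋃ a ∈ A, f a with hB
  have hBP : B ⊆ P := Set.iUnion₂_subset fun a _ => (hf a).1
  have hBf : B.Finite := hA.biUnion fun a _ => (hf a).2.1
  have hAB : ∀ a ∈ A, (a : G) ∈ Subgroup.closure B := fun a ha =>
    Subgroup.closure_mono (Set.subset_biUnion_of_mem (u := f) ha) (hf a).2.2
  have hle : Subgroup.closure A ≤ (Subgroup.closure B).comap (Subgroup.closure P).subtype :=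
    (Subgroup.closure_le _).2 fun a ha => hAB a ha
  refine fpb_of_injective (H := Subgroup.closure B)
    (((Subgroup.closure P).subtype.comp (Subgroup.closure A).subtype).codRestrict
      (Subgroup.closure B) fun x => hle x.2) ?_ (h B hBP hBf)
  intro x y hxy
  have h1 := congrArg Subtype.val hxy
  exact Subtype.ext (Subtype.ext h1)

/-- Q1 for the group of finite-state automorphisms of polynomial activity, given the
triangular case. -/
theorem fpb_polyAut_of [Finite X]
    (tri : ∀ m : ℕ, (ssPow X m).Faithful → ∀ l : List (TreeAut X), (ssPow X m).Tri l →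
      FPB (Subgroup.closure {x | x ∈ l})) : FPB (PolyAut X) := by
  have h1 : FPB (Subgroup.closure (PolyAut X : Set (TreeAut X))) := by
    apply fpb_closure_of_finite
    intro A hA hAf
    obtain ⟨m, hm, l, hl, htri⟩ := exists_tri A hAf (fun g hg => (hA hg).1)
      (fun g hg => (hA hg).2)
    exact fpb_mono (Subgroup.closure_mono hl) (tri m (ssPow_faithful m hm) l htri)
  exact fpb_mono Subgroup.subset_closure h1

end Vale.Agent.P192
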