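import Vale.Agent.P192.H663.Calc

/-!
# P192: the universal group of a family of partial stabilisers

`T` acts on `X`, `H ≤ T`, and for every `x` there is a subset `V x` of `T` containing `H`, such
that the `V x` form a groupoid.  `Gp` is the group generated by `H` and the symbols `[x, g]`
(`g ∈ V x`) with the relations `[g • x, g'] [x, g] = [x, g' g]` and `[x, h] = h` for `h ∈ H`.
-/

namespace Vale.Agent.P192

universe u v w

/-- A family `V` of subsets of `T`, closed like a groupoid over the action on `X`, each member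
containing `H`. -/
structure GpdFam (T : Type u) (X : Type v) [Group T] [MulAction T X] (H : Subgroup T) where
  /-- the family -/
  V : X → Set T
  mul_mem : ∀ (x : X) (g g' : T), g ∈ V x → g' ∈ V (g • x) → g' * g ∈ V x
  inv_mem : ∀ (x : X) (g : T), g ∈ V x → g⁻¹ ∈ V (g • x)
  H_le : ∀ (x : X) (h : T), h ∈ H → h ∈ V x

namespace GpdFam

variable {T : Type u} {X : Type v} [Group T] [MulAction T X] {H : Subgroup T} (D : GpdFam T X H)

/-- generators -/
abbrev Gen : Type (max u v) := H ⊕ {p : X × T // p.2 ∈ D.V p.1}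

/-- relations -/
def rels : Set (FreeGroup D.Gen) :=
  {r | (∃ h h' : H, r = FreeGroup.of (Sum.inl h) * FreeGroup.of (Sum.inl h') *
        (FreeGroup.of (Sum.inl (h * h')))⁻¹) ∨
    (∃ (x : X) (g g' : T) (hg : g ∈ D.V x) (hg' : g' ∈ D.V (g • x)),
      r = FreeGroup.of (Sum.inr ⟨(g • x, g'), hg'⟩) * FreeGroup.of (Sum.inr ⟨(x, g), hg⟩) *
        (FreeGroup.of (Sum.inr ⟨(x, g' * g), D.mul_mem x g g' hg hg'⟩))⁻¹) ∨
    (∃ (x : X) (h : T) (hh : h ∈ H),
      r = FreeGroup.of (Sum.inr ⟨(x, h), D.H_le x h hh⟩) *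
        (FreeGroup.of (Sum.inl ⟨h, hh⟩))⁻¹)}

/-- the universal group -/
def Gp : Type (max u v) := PresentedGroup D.rels

instance : Group D.Gp := inferInstanceAs (Group (PresentedGroup D.rels))

/-- the letters -/
def ofGen (g : D.Gen) : D.Gp := (PresentedGroup.of g : PresentedGroup D.rels)

theorem closure_ofGen : Subgroup.closure (Set.range D.ofGen) = ⊤ :=
  PresentedGroup.closure_range_of D.rels

/-- the letters of `H` -/
def iH : H →* D.Gp :=
  MonoidHom.mk' (fun h => (PresentedGroup.of (Sum.inl h) : PresentedGroup D.rels)) (by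
    intro a b
    symm
    have h := PresentedGroup.one_of_mem (rels := D.rels)
      (x := FreeGroup.of (Sum.inl a) * FreeGroup.of (Sum.inl b) *
        (FreeGroup.of (Sum.inl (a * b)))⁻¹) (Or.inl ⟨a, b, rfl⟩)
    rw [map_mul, map_mul, map_inv, mul_inv_eq_one] at h
    exact h)

/-- the letters `[x, g]` -/
def iV (x : X) (g : T) (hg : g ∈ D.V x) : D.Gp :=
  (PresentedGroup.of (Sum.inr ⟨(x, g), hg⟩) : PresentedGroup D.rels)

theorem iV_mul (x : X) (g g' : T) (hg : g ∈ D.V x) (hg' : g' ∈ D.V (g • x)) :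
    D.iV (g • x) g' hg' * D.iV x g hg = D.iV x (g' * g) (D.mul_mem x g g' hg hg') := by
  have h := PresentedGroup.one_of_mem (rels := D.rels)
    (x := FreeGroup.of (Sum.inr ⟨(g • x, g'), hg'⟩) * FreeGroup.of (Sum.inr ⟨(x, g), hg⟩) *
        (FreeGroup.of (Sum.inr ⟨(x, g' * g), D.mul_mem x g g' hg hg'⟩))⁻¹)
    (Or.inr (Or.inl ⟨x, g, g', hg, hg', rfl⟩))
  rw [map_mul, map_mul, map_inv, mul_inv_eq_one] at h
  exact h

theorem iV_H (x : X) (h : T) (hh : h ∈ H) : D.iV x h (D.H_le x h hh) = D.iH ⟨h, hh⟩ := by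
  have h' := PresentedGroup.one_of_mem (rels := D.rels)
    (x := FreeGroup.of (Sum.inr ⟨(x, h), D.H_le x h hh⟩) *
        (FreeGroup.of (Sum.inl ⟨h, hh⟩))⁻¹)
    (Or.inr (Or.inr ⟨x, h, hh, rfl⟩))
  rw [map_mul, map_inv, mul_inv_eq_one] at h'
  exact h'

theorem iV_congr {x x' : X} {g g' : T} (hx : x = x') (hg' : g = g') (hg : g ∈ D.V x) :
    D.iV x g hg = D.iV x' g' (hx ▸ hg' ▸ hg) := by
  subst hx; subst hg'; rfl

/-- `[x, g']·[y, g] = [y, g' g]` when `g y = x`. -/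
theorem iV_mul' {x y : X} {g g' : T} (hg : g ∈ D.V y) (hg' : g' ∈ D.V x) (h : g • y = x) :
    D.iV x g' hg' * D.iV y g hg = D.iV y (g' * g) (D.mul_mem y g g' hg (h ▸ hg')) := by
  subst h
  exact D.iV_mul y g g' hg hg'

theorem iV_one (x : X) : D.iV x 1 (D.H_le x 1 (one_mem H)) = 1 := by
  rw [D.iV_H x 1 (one_mem H)]
  exact map_one D.iH

theorem iV_inv (x : X) (g : T) (hg : g ∈ D.V x) :
    (D.iV x g hg)⁻¹ = D.iV (g • x) g⁻¹ (D.inv_mem x g hg) := by
  apply inv_eq_of_mul_eq_one_left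
  rw [D.iV_mul x g g⁻¹ hg (D.inv_mem x g hg), D.iV_congr rfl (inv_mul_cancel g) _]
  exact D.iV_one x

/-- homomorphisms out of the universal group -/
def lift {G : Type w} [Group G] (f : H →* G) (φ : ∀ (x : X) (g : T), g ∈ D.V x → G)
    (h1 : ∀ (x : X) (g g' : T) (hg : g ∈ D.V x) (hg' : g' ∈ D.V (g • x)),
      φ (g • x) g' hg' * φ x g hg = φ x (g' * g) (D.mul_mem x g g' hg hg'))
    (h2 : ∀ (x : X) (h : T) (hh : h ∈ H), φ x h (D.H_le x h hh) = f ⟨h, hh⟩) : D.Gp →* G :=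
  PresentedGroup.toGroup (rels := D.rels)
    (f := Sum.elim (fun h => f h) (fun p => φ p.1.1 p.1.2 p.2)) (by
      rintro r (⟨h, h', rfl⟩ | ⟨x, g, g', hg, hg', rfl⟩ | ⟨x, h, hh, rfl⟩)
      · simp
      · simp [h1 x g g' hg hg']
      · simp [h2 x h hh])

theorem lift_iH {G : Type w} [Group G] (f : H →* G) (φ : ∀ (x : X) (g : T), g ∈ D.V x → G)
    (h1 h2) (h : H) : D.lift f φ h1 h2 (D.iH h) = f h :=
  PresentedGroup.toGroup.of _

theorem lift_iV {G : Type w} [Group G] (f : H →* G) (φ : ∀ (x : X) (g : T), g ∈ D.V x → G)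
    (h1 h2) (x : X) (g : T) (hg : g ∈ D.V x) : D.lift f φ h1 h2 (D.iV x g hg) = φ x g hg :=
  PresentedGroup.toGroup.of _

theorem hom_ext {G : Type w} [Group G] {a b : D.Gp →* G} (h1 : ∀ h, a (D.iH h) = b (D.iH h))
    (h2 : ∀ x g hg, a (D.iV x g hg) = b (D.iV x g hg)) : a = b := by
  apply PresentedGroup.ext (rels := D.rels)
  rintro (h | ⟨⟨x, g⟩, hg⟩)
  · exact h1 h
  · exact h2 x g hg

/-- The universal group is generated by its letters. -/
theorem gen : Subgroup.closure ({y | ∃ h, y = D.iH h} ∪ {y | ∃ x g hg, y = D.iV x g hg}) = ⊤ := by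
  rw [eq_top_iff, ← D.closure_ofGen, Subgroup.closure_le]
  rintro _ ⟨(h | ⟨⟨x, g⟩, hg⟩), rfl⟩
  · exact Subgroup.subset_closure (Or.inl ⟨h, rfl⟩)
  · exact Subgroup.subset_closure (Or.inr ⟨x, g, hg, rfl⟩)

/-- the stabiliser of `x` in `V x` -/
def stab (x : X) : Subgroup T where
  carrier := {g | g ∈ D.V x ∧ g • x = x}
  one_mem' := ⟨D.H_le x 1 (one_mem H), one_smul T x⟩
  mul_mem' := by
    rintro a b ⟨ha, ha'⟩ ⟨hb, hb'⟩
    refine ⟨D.mul_mem x b a hb (by rw [hb']; exact ha), ?_⟩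
    rw [mul_smul, hb', ha']
  inv_mem' := by
    rintro a ⟨ha, ha'⟩
    have h := D.inv_mem x a ha
    rw [ha'] at h
    exact ⟨h, by rw [inv_smul_eq_iff, ha']⟩

end GpdFam

end Vale.Agent.P192
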