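import Vale.Agent.P192.H663.SelfSim

/-!
# P192: groups of finite-valued functions

If `H` is in the class then so is every group of functions with values in `H` all of which take
finitely many values, and every group of twisted permutations `(π, f)` with `f` finite-valued whose
group of permutations is in the class.
-/

namespace Vale.Agent.P192

universe u v w

/-- Groups of finite-valued functions. -/
theorem fpb_finval {I : Type v} {H : Type u} [Group H] (hH : FPB H) (K : Subgroup (I → H))
    (hK : ∀ g ∈ K, (Set.range g).Finite) : FPB K := by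
  refine fpb_of_local fun A hA => ?_
  have : Finite A := hA.to_subtype
  let Φ : I → (A → H) := fun i a => a.1.1 i
  have hR : (Set.range Φ).Finite := by
    refine (Set.Finite.pi' (t := fun a : A => Set.range a.1.1) fun a => hK _ a.1.2).subset ?_
    rintro _ ⟨i, rfl⟩ a
    exact ⟨i, rfl⟩
  have : Finite (Set.range Φ) := hR.to_subtype
  choose rep hrep using fun r : Set.range Φ => r.2
  have hcl : ∀ k ∈ Subgroup.closure A, ∀ i j, Φ i = Φ j → k.1 i = k.1 j := by
    intro k hk
    induction hk using Subgroup.closure_induction with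
    | mem x hx => exact fun i j h => congrFun h ⟨x, hx⟩
    | one => exact fun i j _ => rfl
    | mul x y _ _ hx hy =>
      intro i j h
      show x.1 i * y.1 i = x.1 j * y.1 j
      rw [hx i j h, hy i j h]
    | inv x _ hx =>
      intro i j h
      show (x.1 i)⁻¹ = (x.1 j)⁻¹
      rw [hx i j h]
  let ψ : Subgroup.closure A →* (Set.range Φ → H) :=
    { toFun := fun k r => k.1.1 (rep r)
      map_one' := rfl
      map_mul' := fun _ _ => rfl }
  refine fpb_of_injective ψ ?_ (fpb_pi fun _ => hH)
  intro k k' h
  apply Subtype.ext
  apply Subtype.ext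
  funext i
  have h1 := hcl k.1 k.2 i (rep ⟨Φ i, i, rfl⟩) (hrep ⟨Φ i, i, rfl⟩).symm
  have h2 := hcl k'.1 k'.2 i (rep ⟨Φ i, i, rfl⟩) (hrep ⟨Φ i, i, rfl⟩).symm
  have h3 := congrFun h ⟨Φ i, i, rfl⟩
  rw [h1, h2]
  exact h3

/-- the permutation part -/
def Wr.perm (L : Type u) (Y : Type v) [Group L] : Wr L Y →* Equiv.Perm Y where
  toFun g := g.p
  map_one' := rfl
  map_mul' _ _ := rfl

/-- Twisted permutations with finite-valued function part, over an arbitrary set `Y`. -/
theorem fpb_wr_finval {L : Type u} {Y : Type v} [Group L] (hL : FPB L) (K : Subgroup (Wr L Y))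
    (hK : ∀ g ∈ K, (Set.range g.f).Finite) (hQ : FPB (K.map (Wr.perm L Y))) : FPB K := by
  let q : K →* K.map (Wr.perm L Y) := (Wr.perm L Y).subgroupMap K
  refine fpb_ext q hQ ?_
  have hker : ∀ g : q.ker, g.1.1.p = 1 := fun g => congrArg Subtype.val g.2
  let ψ : q.ker →* (Y → L) :=
    { toFun := fun g => g.1.1.f
      map_one' := rfl
      map_mul' := by
        intro a b
        funext y
        show (a.1.1 * b.1.1).f y = a.1.1.f y * b.1.1.f y
        rw [Wr.mul_f, hker b]
        rfl }
  have hψ : Function.Injective ψ := by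
    intro a b h
    apply Subtype.ext
    apply Subtype.ext
    apply Wr.ext'
    · rw [hker a, hker b]
    · exact fun y => congrFun h y
  refine fpb_of_injective ψ.rangeRestrict (fun a b h => hψ (congrArg Subtype.val h)) ?_
  apply fpb_finval hL
  rintro _ ⟨g, rfl⟩
  exact hK _ g.1.2

/-- The same over a group `T` acting through a homomorphism with cocycle: explicit form.  `G` acts
on `Y`, `c : G → Y → L` is a cocycle with finitely many values for every `g`, the action and the
cocycle together are faithful, and the group of permutations is in the class. -/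
theorem fpb_cocycle {G : Type w} {L : Type u} {Y : Type v} [Group G] [Group L] (hL : FPB L)
    (ρ : G →* Equiv.Perm Y) (c : G → Y → L) (hc : ∀ g h y, c (g * h) y = c g (ρ h y) * c h y)
    (hfin : ∀ g, (Set.range (c g)).Finite) (hinj : ∀ g, ρ g = 1 → (∀ y, c g y = 1) → g = 1)
    (hQ : FPB ρ.range) : FPB G := by
  have hc1 : ∀ y, c 1 y = 1 := by
    intro y
    have h := hc 1 1 y
    rw [one_mul, map_one, Equiv.Perm.one_apply] at h
    exact mul_eq_left.1 h.symm
  let ψ : G →* Wr L Y :=
    { toFun := fun g => ⟨ρ g, c g⟩
      map_one' := by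
        apply Wr.ext'
        · exact map_one ρ
        · exact hc1
      map_mul' := by
        intro a b
        apply Wr.ext'
        · exact map_mul ρ a b
        · exact hc a b }
  have hψ : Function.Injective ψ := by
    rw [injective_iff_map_eq_one]
    intro g hg
    apply hinj g
    · exact congrArg Wr.p hg
    · exact fun y => congrFun (congrArg Wr.f hg) y
  refine fpb_of_injective ψ.rangeRestrict (fun a b h => hψ (congrArg Subtype.val h)) ?_
  apply fpb_wr_finval hL
  · rintro _ ⟨g, rfl⟩
    exact hfin g
  · refine fpb_mono ?_ hQ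
    rintro _ ⟨_, ⟨g, rfl⟩, rfl⟩
    exact ⟨g, rfl⟩

end Vale.Agent.P192
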