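import Vale.Agent.P192.H491.Sect
import Vale.Agent.P192.H826.RaysA

/-!
# P192: the tree of words as a self-similar structure over the letters

`ssOne X : SS (TreeAut X) X`, sections `sect g [x]`.  It is faithful, and any two rays are
connected by an automorphism with trivial sections next to the ray.
-/

namespace Vale.Agent.P192

variable {X : Type*}

/-- words of length one and letters -/
def wordOne (X : Type*) : {v : List X // v.length = 1} ≃ X where
  toFun v := v.1.head (by
    intro h
    have := v.2
    rw [h] at this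
    simp at this)
  invFun x := ⟨[x], rfl⟩
  left_inv v := by
    obtain ⟨v, hv⟩ := v
    obtain ⟨x, rfl⟩ := List.length_eq_one_iff.1 hv
    rfl
  right_inv x := rfl

/-- the permutation of the letters -/
def letterPerm (X : Type*) : TreeAut X →* Equiv.Perm X :=
  (wordOne X).permCongrHom.toMonoidHom.comp (levelPerm X 1)

theorem apply_letter (g : TreeAut X) (x : X) :
    (g : Equiv.Perm (List X)) [x] = [letterPerm X g x] := by
  have h : (letterPerm X g x) = wordOne X (levelPerm X 1 g ⟨[x], rfl⟩) := rfl
  rw [h]
  have h2 : ((wordOne X).symm (wordOne X (levelPerm X 1 g ⟨[x], rfl⟩))).1 =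
      (levelPerm X 1 g ⟨[x], rfl⟩).1 := by rw [Equiv.symm_apply_apply]
  rw [levelPerm_apply] at h2
  exact h2.symm

/-- The self-similar structure over the letters. -/
def ssOne (X : Type*) : SS (TreeAut X) X where
  σ := letterPerm X
  sec g x := sect g [x]
  sec_mul g h x := by
    have h1 := sect_mul g h [x]
    rw [apply_letter] at h1
    exact h1

theorem ssOne_sec (g : TreeAut X) (x : X) : (ssOne X).sec g x = sect g [x] := rfl

theorem ssOne_σ (g : TreeAut X) : (ssOne X).σ g = letterPerm X g := rfl

theorem ssOne_secL (g : TreeAut X) (v : List X) : (ssOne X).secL g v = sect g v := by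
  induction v generalizing g with
  | nil => exact (sect_nil g).symm
  | cons x v ih =>
    show (ssOne X).secL (sect g [x]) v = sect g (x :: v)
    rw [ih, ← sect_append]
    rfl

theorem ssOne_faithful (X : Type*) : (ssOne X).Faithful := by
  intro g hg
  apply ta_ext
  intro w
  show (g : Equiv.Perm (List X)) w = w
  have key : ∀ n : ℕ, ∀ w : List X, w.length = n → (g : Equiv.Perm (List X)) w = w := by
    intro n
    induction n with
    | zero =>
      intro w hw
      rw [List.length_eq_zero_iff.1 hw, ta_nil]
    | succ n ih =>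
      intro w hw
      obtain ⟨v, x, rfl⟩ : ∃ v x, w = v ++ [x] := by
        rcases List.eq_nil_or_concat w with h | ⟨v, x, h⟩
        · rw [h] at hw
          simp at hw
        · exact ⟨v, x, by rw [h, List.concat_eq_append]⟩
      have hv : v.length = n := by
        rw [List.length_append, List.length_singleton] at hw
        omega
      have h1 := hg v
      rw [ssOne_secL, ssOne_σ] at h1
      rw [sect_spec, ih v hv, apply_letter, h1]
      rfl
  exact key _ w rfl

/-- the prefix of length `n` of a ray -/
def pre (ξ : ℕ → X) (n : ℕ) : List X := (List.range n).map ξ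

theorem pre_succ (ξ : ℕ → X) (n : ℕ) : pre ξ (n + 1) = pre ξ n ++ [ξ n] := by
  rw [pre, List.range_succ, List.map_append]
  rfl

theorem length_pre (ξ : ℕ → X) (n : ℕ) : (pre ξ n).length = n := by
  rw [pre, List.length_map, List.length_range]

theorem ssOne_st (ξ : ℕ → X) (n : ℕ) (g : TreeAut X) :
    (ssOne X).st ξ n g = sect g (pre ξ n) := by
  induction n with
  | zero => exact (sect_nil g).symm
  | succ n ih =>
    show (ssOne X).sec ((ssOne X).st ξ n g) (ξ n) = _
    rw [ih, ssOne_sec, pre_succ, sect_append]

theorem ssOne_off (ξ : ℕ → X) (g : TreeAut X) :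
    (ssOne X).off ξ g = {k | ∃ n y, y ≠ ξ n ∧ k = sect g (pre ξ n ++ [y])} := by
  ext k
  constructor
  · rintro ⟨n, y, hy, rfl⟩
    exact ⟨n, y, hy, by rw [ssOne_st, ssOne_sec, sect_append]⟩
  · rintro ⟨n, y, hy, rfl⟩
    exact ⟨n, y, hy, by rw [ssOne_st, ssOne_sec, sect_append]⟩

/-! ### rays are connected -/

section

open Classical in
/-- exchange the rays `ξ` and `η` -/
noncomputable def swapFun : (ℕ → X) → (ℕ → X) → List X → List X
  | _, _, [] => []
  | ξ, η, y :: w => Equiv.swap (ξ 0) (η 0) y ::
      (if y = ξ 0 then swapFun (fun n => ξ (n + 1)) (fun n => η (n + 1)) w else w)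

theorem swapFun_nil (ξ η : ℕ → X) : swapFun ξ η [] = [] := by rw [swapFun]

open Classical in
theorem swapFun_cons (ξ η : ℕ → X) (y : X) (w : List X) :
    swapFun ξ η (y :: w) = Equiv.swap (ξ 0) (η 0) y ::
      (if y = ξ 0 then swapFun (fun n => ξ (n + 1)) (fun n => η (n + 1)) w else w) := by
  rw [swapFun]

theorem length_swapFun (ξ η : ℕ → X) (w : List X) : (swapFun ξ η w).length = w.length := by
  induction w generalizing ξ η with
  | nil => rw [swapFun_nil]
  | cons y w ih =>
    rw [swapFun_cons, List.length_cons, List.length_cons]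
    split_ifs with h
    · rw [ih]
    · rfl

theorem swapFun_swapFun (ξ η : ℕ → X) (w : List X) : swapFun η ξ (swapFun ξ η w) = w := by
  classical
  induction w generalizing ξ η with
  | nil => rw [swapFun_nil, swapFun_nil]
  | cons y w ih =>
    rw [swapFun_cons, swapFun_cons, Equiv.swap_comm (η 0) (ξ 0), Equiv.swap_apply_self]
    by_cases h : y = ξ 0
    · have h2 : Equiv.swap (ξ 0) (η 0) y = η 0 := by rw [h, Equiv.swap_apply_left]
      rw [if_pos h, if_pos h2, ih]
    · have h2 : Equiv.swap (ξ 0) (η 0) y ≠ η 0 := by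
        intro h3
        apply h
        have h4 := congrArg (Equiv.swap (ξ 0) (η 0)) h3
        rwa [Equiv.swap_apply_self, Equiv.swap_apply_right] at h4
      rw [if_neg h, if_neg h2]

theorem prefix_swapFun (ξ η : ℕ → X) (v w : List X) :
    swapFun ξ η v <+: swapFun ξ η (v ++ w) := by
  classical
  induction v generalizing ξ η with
  | nil => rw [swapFun_nil]; exact List.nil_prefix
  | cons y v ih =>
    rw [List.cons_append, swapFun_cons, swapFun_cons, List.prefix_cons_inj]
    split_ifs with h
    · exact ih _ _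
    · exact List.prefix_append v w

/-- the automorphism exchanging the rays `ξ` and `η` -/
noncomputable def swapAut (ξ η : ℕ → X) : TreeAut X :=
  ⟨⟨swapFun ξ η, swapFun η ξ, swapFun_swapFun ξ η, swapFun_swapFun η ξ⟩, by
    refine ⟨length_swapFun ξ η, fun v w => ⟨?_, ?_⟩⟩
    · rintro ⟨t, ht⟩
      have ht' : swapFun ξ η v ++ t = swapFun ξ η w := ht
      have h := prefix_swapFun η ξ (swapFun ξ η v) t
      rwa [swapFun_swapFun, ht', swapFun_swapFun] at h
    · rintro ⟨t, rfl⟩
      exact prefix_swapFun ξ η v t⟩

theorem swapAut_apply (ξ η : ℕ → X) (w : List X) :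
    (swapAut ξ η : Equiv.Perm (List X)) w = swapFun ξ η w := rfl

theorem letterPerm_swapAut (ξ η : ℕ → X) (y : X) :
    letterPerm X (swapAut ξ η) y = (open Classical in Equiv.swap (ξ 0) (η 0)) y := by
  classical
  have h := apply_letter (swapAut ξ η) y
  rw [swapAut_apply, swapFun_cons] at h
  exact (List.cons.inj h).1.symm

theorem sect_swapAut (ξ η : ℕ → X) (y : X) :
    sect (swapAut ξ η) [y] = (open Classical in
      if y = ξ 0 then swapAut (fun n => ξ (n + 1)) (fun n => η (n + 1)) else 1) := by
  classical
  apply ta_ext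
  intro w
  have h := sect_spec (swapAut ξ η) [y] w
  rw [swapAut_apply, swapAut_apply, List.singleton_append, swapFun_cons, swapFun_cons,
    List.cons_append] at h
  have h2 := (List.cons.inj h).2
  by_cases hy : y = ξ 0
  · rw [if_pos hy, if_pos hy, swapFun_nil, List.nil_append] at h2
    rw [if_pos hy, swapAut_apply]
    exact h2.symm
  · rw [if_neg hy, if_neg hy, List.nil_append] at h2
    rw [if_neg hy]
    exact h2.symm

theorem st_swapAut (ξ η : ℕ → X) (n : ℕ) :
    (ssOne X).st ξ n (swapAut ξ η) = swapAut (fun k => ξ (n + k)) (fun k => η (n + k)) := by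
  classical
  induction n with
  | zero =>
    show swapAut ξ η = _
    congr 1 <;> funext k <;> rw [Nat.zero_add]
  | succ n ih =>
    show (ssOne X).sec ((ssOne X).st ξ n (swapAut ξ η)) (ξ n) = _
    rw [ih, ssOne_sec, sect_swapAut, if_pos (by rw [Nat.add_zero])]
    congr 1 <;> funext k <;> congr 1 <;> omega

/-- **Connectedness.** Any two rays are connected by an automorphism whose sections next to the
ray are trivial. -/
theorem ssOne_conn (ξ η : ℕ → X) :
    ∃ g, (ssOne X).off ξ g ⊆ {1} ∧ (ssOne X).ract g ξ = η := by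
  classical
  refine ⟨swapAut ξ η, ?_, ?_⟩
  · rintro _ ⟨n, y, hy, rfl⟩
    rw [Set.mem_singleton_iff, st_swapAut, ssOne_sec, sect_swapAut,
      if_neg (by rw [Nat.add_zero]; exact hy)]
  · funext n
    show (ssOne X).σ ((ssOne X).st ξ n (swapAut ξ η)) (ξ n) = η n
    rw [st_swapAut, ssOne_σ, letterPerm_swapAut]
    simp only [Nat.add_zero]
    rw [Equiv.swap_apply_left]

/-! ### the same for `ssPow X 1` -/

theorem val_wordOne (y : {v : List X // v.length = 1}) : y.1 = [wordOne X y] :=
  congrArg Subtype.val ((wordOne X).symm_apply_apply y).symm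

theorem ssPow_one_st (ξ : ℕ → {v : List X // v.length = 1}) (n : ℕ) (g : TreeAut X) :
    (ssPow X 1).st ξ n g = (ssOne X).st (fun k => wordOne X (ξ k)) n g := by
  induction n with
  | zero => rfl
  | succ n ih =>
    show (ssPow X 1).sec ((ssPow X 1).st ξ n g) (ξ n) = _
    rw [ih, ssPow_sec, val_wordOne]
    rfl

/-- connectedness for `ssPow X 1` -/
theorem conn_ssPow (X : Type*) (ξ η : ℕ → {v : List X // v.length = 1}) :
    ∃ g : TreeAut X, (ssPow X 1).off ξ g ⊆ {1} ∧ (ssPow X 1).ract g ξ = η := by
  obtain ⟨g, h1, h2⟩ := ssOne_conn (fun k => wordOne X (ξ k)) (fun k => wordOne X (η k))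
  refine ⟨g, ?_, ?_⟩
  · rintro _ ⟨n, y, hy, rfl⟩
    apply h1
    refine ⟨n, wordOne X y, fun h => hy ((wordOne X).injective h), ?_⟩
    rw [ssPow_one_st, ssPow_sec, val_wordOne, ssOne_sec]
  · funext n
    apply (wordOne X).injective
    have h3 := congrFun h2 n
    rw [← h3]
    show wordOne X (levelPerm X 1 ((ssPow X 1).st ξ n g) (ξ n)) =
      letterPerm X ((ssOne X).st (fun k => wordOne X (ξ k)) n g) (wordOne X (ξ n))
    rw [ssPow_one_st]
    show _ = wordOne X (levelPerm X 1 _ ((wordOne X).symm (wordOne X (ξ n))))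
    rw [Equiv.symm_apply_apply]

end

end Vale.Agent.P192
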