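import Vale.Agent.P192.H491.Final
import Vale.Agent.P192.H663.Assembly
import Vale.Agent.P192.H260.StepB

/-!
# P192: polynomial activity, explicit form

A homomorphism from a finitely presented periodic group to the automorphisms of the tree of words
over a finite alphabet, whose generators are finite-state of polynomial activity, has finite image.
-/

namespace Vale.Agent.P192

/-- The group of all finite-state automorphisms of polynomial activity. -/
theorem fpb_polyAut (X : Type*) [Finite X] : FPB (PolyAut X) :=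
  fpb_polyAut_of fun _ hf l hl =>
    SS.tri_fpb' _ SS.amalgThm
      (fun _ hH _ _ _ h1 h2 h3 hno => SS.stepB hf hH h1 h2 h3 hno) hf l hl

/-- **Explicit form.** -/
theorem poly_explicit (X : Type) [Finite X] (Γ : Type) [Group Γ] [Group.IsFinitelyPresented Γ]
    (hΓ : IsMulTorsion Γ) (S : Set Γ) (hS : Subgroup.closure S = ⊤)
    (ρ : Γ →* Equiv.Perm (List X)) (h1 : ∀ g w, (ρ g w).length = w.length)
    (h2 : ∀ g v w, ρ g v <+: ρ g (v ++ w))
    (h3 : ∀ g ∈ S, {f : List X → List X | ∃ v, ∀ w, ρ g (v ++ w) = ρ g v ++ f w}.Finite)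
    (h4 : ∀ g ∈ S, ∃ C k : ℕ, ∀ n,
      {v : List X | v.length = n ∧ ∃ w, ρ g (v ++ w) ≠ ρ g v ++ w}.ncard ≤ C * (n + 1) ^ k) :
    Finite ρ.range := by
  have hinv : ∀ g v, ρ g⁻¹ (ρ g v) = v := fun g v => by
    rw [← Equiv.Perm.mul_apply, ← map_mul, inv_mul_cancel, map_one, Equiv.Perm.one_apply]
  have hmem : ∀ g, ρ g ∈ TreeAut X := by
    intro g
    refine ⟨h1 g, fun v w => ⟨?_, ?_⟩⟩
    · rintro ⟨t, ht⟩
      have h := h2 g⁻¹ (ρ g v) t
      rw [hinv, ht, hinv] at h
      exact h
    · rintro ⟨t, rfl⟩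
      exact h2 g v t
  set ρ' : Γ →* TreeAut X := ρ.codRestrict (TreeAut X) hmem with hρ'
  have hval : ∀ g, ((ρ' g : TreeAut X) : Equiv.Perm (List X)) = ρ g := fun g => rfl
  have hspec : ∀ g v w, ρ g (v ++ w) = ρ g v ++ (sect (ρ' g) v : Equiv.Perm (List X)) w := by
    intro g v w
    have h := sect_spec (ρ' g) v w
    rw [hval] at h
    exact h
  have hpoly : ∀ g ∈ S, ρ' g ∈ PolyAut X := by
    intro g hg
    refine ⟨?_, ?_⟩
    · have hinj : Function.Injective
          (fun s : TreeAut X => ((s : Equiv.Perm (List X)) : List X → List X)) := by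
        intro a b hab
        exact ta_ext fun w => congrFun hab w
      have h := (h3 g hg).preimage (hinj.injOn (s := (fun s : TreeAut X =>
        ((s : Equiv.Perm (List X)) : List X → List X)) ⁻¹'
          {f : List X → List X | ∃ v, ∀ w, ρ g (v ++ w) = ρ g v ++ f w}))
      refine h.subset ?_
      rintro _ ⟨v, rfl⟩
      exact ⟨v, fun w => hspec g v w⟩
    · obtain ⟨C, k, hC⟩ := h4 g hg
      refine ⟨C, k, fun n => ?_⟩
      refine le_trans (Set.ncard_le_ncard ?_ (words_finite n _)) (hC n)
      rintro v ⟨hv, hne⟩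
      refine ⟨hv, ?_⟩
      by_contra hcon
      push Not at hcon
      apply hne
      apply ta_ext
      intro w
      have h := hspec g v w
      rw [hcon w] at h
      exact (List.append_cancel_left h).symm
  have hall : ∀ g, ρ' g ∈ PolyAut X := by
    intro g
    have hle : Subgroup.closure S ≤ (PolyAut X).comap ρ' :=
      (Subgroup.closure_le _).2 fun s hs => hpoly s hs
    rw [hS] at hle
    exact hle (Subgroup.mem_top g)
  have hfin : Finite (ρ'.codRestrict (PolyAut X) hall).range :=
    fpb_polyAut X Γ inferInstance (fun x => hΓ x) (ρ'.codRestrict (PolyAut X) hall)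
  have hsub : (ρ.range : Set (Equiv.Perm (List X))) ⊆
      (fun s : PolyAut X => ((s : TreeAut X) : Equiv.Perm (List X))) ''
        ((ρ'.codRestrict (PolyAut X) hall).range : Set (PolyAut X)) := by
    rintro _ ⟨g, rfl⟩
    exact ⟨ρ'.codRestrict (PolyAut X) hall g, ⟨g, rfl⟩, rfl⟩
  have hfin' : ((ρ'.codRestrict (PolyAut X) hall).range : Set (PolyAut X)).Finite :=
    Set.toFinite _
  exact ((hfin'.image _).subset hsub).to_subtype

end Vale.Agent.P192
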