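import Vale.Agent.P192.H124.PMPack

/-!
# P192: piecewise monotone actions: the invariant monotone function (step (4))
-/

namespace Vale.Agent.P192.PM

open Set Classical

variable {K : Type} [LinearOrder K] {Γ : Type} [Group Γ] [MulAction Γ K]

theorem coinit {Q : Finset (Set K)} (hcov : ∀ x, ∃ C ∈ Q, x ∈ C) {U : Set K}
    (hne : U.Nonempty) : ∃ C ∈ Q, (∃ z, z ∈ C ∧ z ∈ U) ∧ ∀ y ∈ U, ∃ z, z ∈ C ∧ z ∈ U ∧ z ≤ y := by
  by_contra hcon
  have h : ∀ C : Set K, ∃ y, y ∈ U ∧ (C ∈ Q → ∀ z, z ∈ C → z ∈ U → y < z) := by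
    intro C
    by_cases hC : C ∈ Q ∧ ∃ z, z ∈ C ∧ z ∈ U
    · by_contra h2
      refine hcon ⟨C, hC.1, hC.2, fun y hy => ?_⟩
      by_contra h3
      refine h2 ⟨y, hy, fun _ z hz hzU => ?_⟩
      by_contra h4
      exact h3 ⟨z, hz, hzU, not_lt.1 h4⟩
    · obtain ⟨u, hu⟩ := hne
      exact ⟨u, hu, fun hCQ z hz hzU => absurd ⟨hCQ, z, hz, hzU⟩ hC⟩
  choose f hfU hf using h
  obtain ⟨u, hu⟩ := hne
  obtain ⟨C1, hC1, -⟩ := hcov u
  obtain ⟨C0, hC0, hmin⟩ := Q.exists_min_image f ⟨C1, hC1⟩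
  obtain ⟨C, hC, hxC⟩ := hcov (f C0)
  exact absurd (hmin C hC) (not_le.2 (hf C hC _ hxC (hfU C0)))

theorem cofin {Q : Finset (Set K)} (hcov : ∀ x, ∃ C ∈ Q, x ∈ C) {U : Set K}
    (hne : U.Nonempty) : ∃ C ∈ Q, (∃ z, z ∈ C ∧ z ∈ U) ∧ ∀ y ∈ U, ∃ z, z ∈ C ∧ z ∈ U ∧ y ≤ z := by
  by_contra hcon
  have h : ∀ C : Set K, ∃ y, y ∈ U ∧ (C ∈ Q → ∀ z, z ∈ C → z ∈ U → z < y) := by
    intro C
    by_cases hC : C ∈ Q ∧ ∃ z, z ∈ C ∧ z ∈ U
    · by_contra h2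
      refine hcon ⟨C, hC.1, hC.2, fun y hy => ?_⟩
      by_contra h3
      refine h2 ⟨y, hy, fun _ z hz hzU => ?_⟩
      by_contra h4
      exact h3 ⟨z, hz, hzU, not_lt.1 h4⟩
    · obtain ⟨u, hu⟩ := hne
      exact ⟨u, hu, fun hCQ z hz hzU => absurd ⟨hCQ, z, hz, hzU⟩ hC⟩
  choose f hfU hf using h
  obtain ⟨u, hu⟩ := hne
  obtain ⟨C1, hC1, -⟩ := hcov u
  obtain ⟨C0, hC0, hmax⟩ := Q.exists_max_image f ⟨C1, hC1⟩
  obtain ⟨C, hC, hxC⟩ := hcov (f C0)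
  exact absurd (hmax C hC) (not_le.2 (hf C hC _ hxC (hfU C0)))

theorem im_Ico {g : Γ} {C : Set K} (hg : Gd g C) (hm : StrictMonoOn (fun y => g • y) C)
    {a b : K} (ha : a ∈ C) (hb : b ∈ C) : im g (Ico a b) = Ico (g • a) (g • b) := by
  apply Set.Subset.antisymm
  · rintro _ ⟨x, hx, rfl⟩
    have hxC : x ∈ C := hg.1.out ha hb ⟨hx.1, hx.2.le⟩
    exact ⟨(hm.le_iff_le ha hxC).2 hx.1, hm hxC hb hx.2⟩
  · intro w hw
    obtain ⟨c, hc, rfl⟩ := hg.2.1.out ⟨a, ha, rfl⟩ ⟨b, hb, rfl⟩ ⟨hw.1, hw.2.le⟩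
    exact ⟨c, ⟨(hm.le_iff_le ha hc).1 hw.1, (hm.lt_iff_lt hc hb).1 hw.2⟩, rfl⟩

theorem im_Ico' {g : Γ} {C : Set K} (hg : Gd g C) (hm : StrictAntiOn (fun y => g • y) C)
    {a b : K} (ha : a ∈ C) (hb : b ∈ C) : im g (Ico a b) = Ioc (g • b) (g • a) := by
  apply Set.Subset.antisymm
  · rintro _ ⟨x, hx, rfl⟩
    have hxC : x ∈ C := hg.1.out ha hb ⟨hx.1, hx.2.le⟩
    exact ⟨hm hxC hb hx.2, hm.antitoneOn ha hxC hx.1⟩
  · intro w hw
    obtain ⟨c, hc, rfl⟩ := hg.2.1.out ⟨b, hb, rfl⟩ ⟨a, ha, rfl⟩ ⟨hw.1.le, hw.2⟩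
    exact ⟨c, ⟨(hm.le_iff_ge hc ha).1 hw.2, (hm.lt_iff_gt hb hc).1 hw.1⟩, rfl⟩

variable {I : Set (Set K)}

/-- from the invariant mean to the monotone function -/
theorem exists_F_of_mu (μ : Set K → ℝ) (h0 : ∀ A, 0 ≤ μ A) (hmono : ∀ A B, A ⊆ B → μ A ≤ μ B)
    (h1 : μ univ = 1) (hadd : ∀ A B : Set K, (∀ a ∈ A, ∀ b ∈ B, a < b) → μ (A ∪ B) = μ A + μ B)
    (hinv : ∀ (g : Γ) A, Gd g A → μ (im g A) = μ A)
    (hsm : ∀ η > 0, ∃ Q : Finset (Set K), (∀ x, ∃ C ∈ Q, x ∈ C) ∧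
      ∀ C ∈ Q, C.OrdConnected ∧ μ C ≤ η)
    (hpos : ∀ J : Set K, J.OrdConnected → J ∉ I → 0 < μ J) :
    ∃ F : K → ℝ, Monotone F ∧ (∀ x, 0 ≤ F x ∧ F x ≤ 1) ∧
      (∀ t, 0 ≤ t → t < 1 → ∀ ε > 0, ∃ y, t < F y ∧ F y < t + ε) ∧
      (∀ (g : Γ) C, Gd g C → StrictMonoOn (fun y => g • y) C → ∃ τ, ∀ y ∈ C, F (g • y) = F y + τ) ∧
      (∀ (g : Γ) C, Gd g C → StrictAntiOn (fun y => g • y) C → ∃ κ, ∀ y ∈ C, F (g • y) = κ - F y) ∧
      ∀ J : Set K, J.OrdConnected → J ∉ I → ∃ a ∈ J, ∃ b ∈ J, F a < F b := by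
  have hempty : μ ∅ = 0 := by
    have := hadd ∅ ∅ (fun a ha => ha.elim)
    rw [Set.union_empty] at this
    linarith
  have hF : Monotone (fun y => μ (Iio y)) := fun a b hab => hmono _ _ (Iio_subset_Iio hab)
  have up : ∀ L U : Set K, (∀ a ∈ L, ∀ b ∈ U, a < b) → (∀ x, x ∈ L ∨ x ∈ U) → U.Nonempty →
      ∀ η > 0, ∃ z ∈ U, μ (Iio z) ≤ μ L + η := by
    intro L U hLU hc hne η hη
    obtain ⟨Q, hQ, hQ'⟩ := hsm η hη
    obtain ⟨C, hC, ⟨z, hzC, hzU⟩, hco⟩ := coinit hQ hne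
    refine ⟨z, hzU, ?_⟩
    have e1 : μ (Iio z) ≤ μ (L ∪ (U ∩ Iio z)) := hmono _ _ (fun x hx => by
      rcases hc x with h | h
      · exact Or.inl h
      · exact Or.inr ⟨h, hx⟩)
    have e2 := hadd L (U ∩ Iio z) (fun a ha b hb => hLU a ha b hb.1)
    have e3 : μ (U ∩ Iio z) ≤ μ C := hmono _ _ (by
      rintro y ⟨hyU, hyz⟩
      obtain ⟨z', hz', -, hle⟩ := hco y hyU
      exact (hQ' C hC).1.out hz' hzC ⟨hle, (le_of_lt hyz)⟩)
    have e4 := (hQ' C hC).2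
    linarith
  have down : ∀ L U : Set K, (∀ a ∈ L, ∀ b ∈ U, a < b) → (∀ x, x ∈ L ∨ x ∈ U) → L.Nonempty →
      ∀ η > 0, ∃ z ∈ L, μ L ≤ μ (Iio z) + η := by
    intro L U hLU hc hne η hη
    obtain ⟨Q, hQ, hQ'⟩ := hsm η hη
    obtain ⟨C, hC, ⟨z, hzC, hzL⟩, hco⟩ := cofin hQ hne
    refine ⟨z, hzL, ?_⟩
    have e1 : μ L ≤ μ (Iio z ∪ (L ∩ Ici z)) := hmono _ _ (fun x hx => by
      rcases lt_or_ge x z with h | h
      · exact Or.inl h
      · exact Or.inr ⟨hx, h⟩)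
    have e2 := hadd (Iio z) (L ∩ Ici z) (fun a ha b hb => lt_of_lt_of_le ha hb.2)
    have e3 : μ (L ∩ Ici z) ≤ μ C := hmono _ _ (by
      rintro y ⟨hyL, hyz⟩
      obtain ⟨z', hz', -, hle⟩ := hco y hyL
      exact (hQ' C hC).1.out hzC hz' ⟨hyz, hle⟩)
    have e4 := (hQ' C hC).2
    linarith
  have hpt : ∀ x : K, μ {x} = 0 := by
    intro x
    refine le_antisymm (le_of_forall_pos_le_add fun η hη => ?_) (h0 _)
    obtain ⟨Q, hQ, hQ'⟩ := hsm η hη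
    obtain ⟨C, hC, hxC⟩ := hQ x
    have := hmono {x} C (Set.singleton_subset_iff.2 hxC)
    have := (hQ' C hC).2
    linarith
  have hseg : ∀ a b : K, a ≤ b → μ (Iio b) = μ (Iio a) + μ (Ico a b) := by
    intro a b hab
    rw [← hadd (Iio a) (Ico a b) (fun x hx y hy => lt_of_lt_of_le hx hy.1),
      Set.Iio_union_Ico_eq_Iio hab]
  have hcc : ∀ a b : K, a ≤ b → μ (Ico a b) = μ (Ioc a b) := by
    intro a b hab
    have e1 := hadd (Ico a b) {b} (fun x hx y hy => by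
      rw [Set.mem_singleton_iff] at hy
      subst hy
      exact hx.2)
    have e2 := hadd {a} (Ioc a b) (fun x hx y hy => by
      rw [Set.mem_singleton_iff] at hx
      subst hx
      exact hy.1)
    have e3 : Ico a b ∪ {b} = {a} ∪ Ioc a b := by
      rw [Set.Ico_union_right hab, Set.union_comm, Set.Ioc_union_left hab]
    rw [e3, e2, hpt, hpt] at e1
    linarith
  refine ⟨fun y => μ (Iio y), hF, fun x => ⟨h0 _, h1 ▸ hmono _ _ (subset_univ _)⟩, ?_, ?_, ?_, ?_⟩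
  · intro t ht0 ht1 ε hε
    by_contra hcon
    have h : ∀ y, t < μ (Iio y) → t + ε ≤ μ (Iio y) := by
      intro y hy
      by_contra h2
      exact hcon ⟨y, hy, not_le.1 h2⟩
    let U : Set K := {y | t < μ (Iio y)}
    let L : Set K := {y | μ (Iio y) ≤ t}
    have hLU : ∀ a ∈ L, ∀ b ∈ U, a < b := by
      intro a ha b hb
      by_contra hc
      have h2 : μ (Iio b) ≤ μ (Iio a) := hF (not_lt.1 hc)
      have h3 : μ (Iio a) ≤ t := ha
      have h4 : t < μ (Iio b) := hb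
      linarith
    have hc : ∀ x, x ∈ L ∨ x ∈ U := fun x => le_or_gt (μ (Iio x)) t
    have hL : ∀ η > 0, μ L ≤ t + η := by
      intro η hη
      rcases L.eq_empty_or_nonempty with he | hne
      · rw [he, hempty]; linarith
      · obtain ⟨z, hz, hz'⟩ := down L U hLU hc hne η hη
        have : μ (Iio z) ≤ t := hz
        linarith
    have hU : U.Nonempty := by
      rw [Set.nonempty_iff_ne_empty]
      intro he
      have : L = univ := by
        apply Set.eq_univ_of_forall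
        intro x
        rcases hc x with h | h
        · exact h
        · rw [he] at h; exact h.elim
      have h2 := hL ((1 - t) / 2) (by linarith)
      rw [this, h1] at h2
      linarith
    obtain ⟨z, hz, hz'⟩ := up L U hLU hc hU (ε / 3) (by linarith)
    have h3 := h z hz
    have h4 := hL (ε / 3) (by linarith)
    linarith
  · intro g C hg hm
    rcases C.eq_empty_or_nonempty with rfl | ⟨y0, hy0⟩
    · exact ⟨0, fun y hy => hy.elim⟩
    have key : ∀ a ∈ C, ∀ b ∈ C, a ≤ b →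
        μ (Iio (g • b)) - μ (Iio (g • a)) = μ (Iio b) - μ (Iio a) := by
      intro a ha b hb hab
      have e1 := hseg a b hab
      have e2 := hseg (g • a) (g • b) ((hm.le_iff_le ha hb).2 hab)
      have e3 := hinv g (Ico a b) (hg.mono (fun x hx => hg.1.out ha hb ⟨hx.1, hx.2.le⟩)
        Set.ordConnected_Ico)
      rw [im_Ico hg hm ha hb] at e3
      linarith
    refine ⟨μ (Iio (g • y0)) - μ (Iio y0), fun y hy => ?_⟩
    change μ (Iio (g • y)) = μ (Iio y) + _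
    rcases le_total y0 y with h | h
    · have := key y0 hy0 y hy h
      linarith
    · have := key y hy y0 hy0 h
      linarith
  · intro g C hg hm
    rcases C.eq_empty_or_nonempty with rfl | ⟨y0, hy0⟩
    · exact ⟨0, fun y hy => hy.elim⟩
    have key : ∀ a ∈ C, ∀ b ∈ C, a ≤ b →
        μ (Iio (g • a)) - μ (Iio (g • b)) = μ (Iio b) - μ (Iio a) := by
      intro a ha b hb hab
      have e1 := hseg a b hab
      have hle : g • b ≤ g • a := hm.antitoneOn ha hb hab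
      have e2 := hseg (g • b) (g • a) hle
      have e3 := hinv g (Ico a b) (hg.mono (fun x hx => hg.1.out ha hb ⟨hx.1, hx.2.le⟩)
        Set.ordConnected_Ico)
      rw [im_Ico' hg hm ha hb, ← hcc _ _ hle] at e3
      linarith
    refine ⟨μ (Iio (g • y0)) + μ (Iio y0), fun y hy => ?_⟩
    change μ (Iio (g • y)) = _ - μ (Iio y)
    rcases le_total y0 y with h | h
    · have := key y0 hy0 y hy h
      linarith
    · have := key y hy y0 hy0 h
      linarith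
  · intro J hJ hJI
    have hJpos := hpos J hJ hJI
    by_contra hcon
    have h : ∀ a ∈ J, ∀ b ∈ J, μ (Iio b) ≤ μ (Iio a) := by
      intro a ha b hb
      by_contra h2
      exact hcon ⟨a, ha, b, hb, not_le.1 h2⟩
    obtain ⟨j, hj⟩ : J.Nonempty := by
      rw [Set.nonempty_iff_ne_empty]
      rintro rfl
      rw [hempty] at hJpos
      exact lt_irrefl _ hJpos
    let L1 : Set K := {x | ∀ y ∈ J, x < y}
    let U1 : Set K := {x | ∃ y ∈ J, y ≤ x}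
    let L2 : Set K := {x | ∃ y ∈ J, x ≤ y}
    let U2 : Set K := {x | ∀ y ∈ J, y < x}
    obtain ⟨z, ⟨y, hy, hzy⟩, hz⟩ := down L2 U2
      (fun a ⟨y, hy, hay⟩ b hb => lt_of_le_of_lt hay (hb y hy))
      (fun x => by
        by_cases hx : x ∈ L2
        · exact Or.inl hx
        · right
          intro y hy
          by_contra hc
          exact hx ⟨y, hy, not_lt.1 hc⟩) ⟨j, j, hj, le_rfl⟩ (μ J / 3) (by linarith)
    obtain ⟨z', ⟨y', hy', hzy'⟩, hz'⟩ := up L1 U1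
      (fun a ha b ⟨y, hy, hyb⟩ => lt_of_lt_of_le (ha y hy) hyb)
      (fun x => by
        by_cases hx : x ∈ U1
        · exact Or.inr hx
        · left
          intro y hy
          by_contra hc
          exact hx ⟨y, hy, not_lt.1 hc⟩) ⟨j, j, hj, le_rfl⟩ (μ J / 3) (by linarith)
    have e1 := hadd L1 J (fun a ha b hb => ha b hb)
    have e2 : μ (L1 ∪ J) ≤ μ L2 := hmono _ _ (by
      rintro x (hx | hx)
      · exact ⟨j, hj, (hx j hj).le⟩
      · exact ⟨x, hx, le_rfl⟩)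
    have e3 : μ (Iio z) ≤ μ (Iio y) := hF hzy
    have e4 : μ (Iio y') ≤ μ (Iio z') := hF hzy'
    have e5 := h y' hy' y hy
    linarith

end Vale.Agent.P192.PM
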