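import Vale.Agent.P192.H491.PMF

/-!
# P192: piecewise monotone actions: the invariant mean on convex sets (step (4))
-/

namespace Vale.Agent.P192.PM

open Set Classical Filter Topology

variable {K : Type} [LinearOrder K] {Γ : Type} [Group Γ] [MulAction Γ K]

variable (Γ) in
/-- the packing number -/
noncomputable def cnt (J A : Set K) : ℕ := sSup {n : ℕ | ∃ T, Pk Γ J A T ∧ T.card = n}

theorem Pk.nonempty {J A : Set K} {T : Finset (Set K)} (h : Pk Γ J A T) (hJ : J.Nonempty)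
    {X : Set K} (hX : X ∈ T) : X.Nonempty := by
  obtain ⟨⟨γ, -, rfl⟩, -⟩ := h.1 X hX
  exact hJ.image _

theorem Pk.union {J A1 A2 : Set K} {T1 T2 : Finset (Set K)} (hJ : J.Nonempty)
    (hd : Disjoint A1 A2) (h1 : Pk Γ J A1 T1) (h2 : Pk Γ J A2 T2) :
    Pk Γ J (A1 ∪ A2) (T1 ∪ T2) ∧ (T1 ∪ T2).card = T1.card + T2.card := by
  refine ⟨⟨?_, ?_⟩, ?_⟩
  · intro X hX
    rcases Finset.mem_union.1 hX with h | h
    · exact ⟨(h1.1 X h).1, (h1.1 X h).2.trans subset_union_left⟩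
    · exact ⟨(h2.1 X h).1, (h2.1 X h).2.trans subset_union_right⟩
  · intro X hX Y hY hXY
    rcases Finset.mem_union.1 hX with h | h <;> rcases Finset.mem_union.1 hY with h' | h'
    · exact h1.2 X h Y h' hXY
    · exact hd.mono (h1.1 X h).2 (h2.1 Y h').2
    · exact (hd.mono (h1.1 Y h').2 (h2.1 X h).2).symm
    · exact h2.2 X h Y h' hXY
  · apply Finset.card_union_of_disjoint
    rw [Finset.disjoint_left]
    intro X hX hX'
    obtain ⟨x, hx⟩ := h1.nonempty hJ hX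
    exact Set.disjoint_left.1 hd ((h1.1 X hX).2 hx) ((h2.1 X hX').2 hx)

section

variable {J : Set K} {b : ℕ} (hb : ∀ T, Pk Γ J univ T → T.card ≤ b)

include hb

theorem cnt_bdd (A : Set K) : BddAbove {n : ℕ | ∃ T, Pk Γ J A T ∧ T.card = n} := by
  refine ⟨b, ?_⟩
  rintro n ⟨T, hT, rfl⟩
  exact hb T (hT.restrict fun X _ => subset_univ X)

theorem le_cnt {A : Set K} {T : Finset (Set K)} (hT : Pk Γ J A T) : T.card ≤ cnt Γ J A :=
  le_csSup (cnt_bdd hb A) ⟨T, hT, rfl⟩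

theorem exists_cnt (A : Set K) : ∃ T, Pk Γ J A T ∧ T.card = cnt Γ J A := by
  have hne : {n : ℕ | ∃ T, Pk Γ J A T ∧ T.card = n}.Nonempty :=
    ⟨0, ∅, ⟨by simp, by simp⟩, rfl⟩
  exact Nat.sSup_mem hne (cnt_bdd hb A)

theorem cnt_mono {A B : Set K} (h : A ⊆ B) : cnt Γ J A ≤ cnt Γ J B := by
  obtain ⟨T, hT, hc⟩ := exists_cnt hb A
  rw [← hc]
  exact le_cnt hb (hT.restrict fun X hX => (hT.1 X hX).2.trans h)

theorem cnt_add_le (hJ : J.Nonempty) {A B : Set K} (h : ∀ a ∈ A, ∀ b ∈ B, a < b) :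
    cnt Γ J A + cnt Γ J B ≤ cnt Γ J (A ∪ B) := by
  obtain ⟨T, hT, hc⟩ := exists_cnt hb A
  obtain ⟨T', hT', hc'⟩ := exists_cnt hb B
  have hd : Disjoint A B := Set.disjoint_left.2 fun x hx hx' => lt_irrefl _ (h x hx x hx')
  obtain ⟨h1, h2⟩ := Pk.union hJ hd hT hT'
  rw [← hc, ← hc', ← h2]
  exact le_cnt hb h1

theorem cnt_split {A B : Set K} (h : ∀ a ∈ A, ∀ b ∈ B, a < b) :
    cnt Γ J (A ∪ B) ≤ cnt Γ J A + cnt Γ J B + 1 := by
  obtain ⟨T, hT, hc⟩ := exists_cnt hb (A ∪ B)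
  obtain ⟨T1, T2, h1, h2, h3⟩ := hT.split h
  have e1 := le_cnt hb h1
  have e2 := le_cnt hb h2
  omega

theorem cnt_im_le {A : Set K} {γ : Γ} (hγ : Gd γ A) : cnt Γ J A ≤ cnt Γ J (im γ A) := by
  obtain ⟨T, hT, hc⟩ := exists_cnt hb A
  obtain ⟨T', hT', hc'⟩ := hT.image hγ
  rw [← hc, ← hc']
  exact le_cnt hb hT'

theorem cnt_im {A : Set K} {γ : Γ} (hγ : Gd γ A) : cnt Γ J (im γ A) = cnt Γ J A := by
  refine le_antisymm ?_ (cnt_im_le hb hγ)
  have h := cnt_im_le hb hγ.inv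
  rwa [im_inv_im] at h

theorem cnt_mul (hJ : J.Nonempty) {J' : Set K} {T' : Finset (Set K)} (hT' : Pk Γ J' univ T') :
    T'.card * cnt Γ J J' ≤ cnt Γ J univ := by
  obtain ⟨T, hT, hc⟩ := exists_cnt hb J'
  have h : ∀ X : Set K, ∃ f : Finset (Set K), X ∈ T' → Pk Γ J X f ∧ f.card = T.card := by
    intro X
    by_cases hX : X ∈ T'
    · obtain ⟨⟨γ, hγ, rfl⟩, -⟩ := hT'.1 X hX
      obtain ⟨f, hf, hf'⟩ := hT.image hγ
      exact ⟨f, fun _ => ⟨hf, hf'⟩⟩
    · exact ⟨∅, fun h => absurd h hX⟩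
  choose f hf using h
  have hpk : Pk Γ J univ (T'.biUnion f) := by
    refine ⟨?_, ?_⟩
    · intro X hX
      obtain ⟨Y, hY, hXY⟩ := Finset.mem_biUnion.1 hX
      exact ⟨((hf Y hY).1.1 X hXY).1, subset_univ _⟩
    · intro X hX X' hX' hne
      obtain ⟨Y, hY, hXY⟩ := Finset.mem_biUnion.1 hX
      obtain ⟨Y', hY', hXY'⟩ := Finset.mem_biUnion.1 hX'
      by_cases hYY : Y = Y'
      · subst hYY
        exact (hf Y hY).1.2 X hXY X' hXY' hne
      · exact (hT'.2 Y hY Y' hY' hYY).mono ((hf Y hY).1.1 X hXY).2 ((hf Y' hY').1.1 X' hXY').2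
  have hcard : (T'.biUnion f).card = T'.card * T.card := by
    rw [Finset.card_biUnion]
    · rw [Finset.sum_congr rfl (fun X hX => (hf X hX).2), Finset.sum_const, smul_eq_mul]
    · intro Y hY Y' hY' hne
      change Disjoint (f Y) (f Y')
      rw [Finset.disjoint_left]
      intro X hX hX'
      obtain ⟨x, hx⟩ := (hf Y hY).1.nonempty hJ hX
      exact Set.disjoint_left.1 (hT'.2 Y hY Y' hY' hne) (((hf Y hY).1.1 X hX).2 hx)
        (((hf Y' hY').1.1 X hX').2 hx)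
  have := le_cnt hb hpk
  rw [hcard, hc] at this
  exact this

theorem cnt_cover (hJ : J.Nonempty) {Q : Finset (Set K)} (hcov : ∀ x, ∃ C ∈ Q, x ∈ C)
    (hconv : ∀ C ∈ Q, C.OrdConnected) {a : ℕ} (ha : ∀ C ∈ Q, cnt Γ J C ≤ a) :
    cnt Γ J univ ≤ (a + 2) * Q.card := by
  obtain ⟨T, hT, hc⟩ := exists_cnt hb univ
  rw [← hc]
  obtain ⟨j, hj⟩ := hJ
  have hpt : ∀ X : Set K, ∃ x, X ∈ T → x ∈ X := by
    intro X
    by_cases hX : X ∈ T
    · obtain ⟨⟨γ, -, rfl⟩, -⟩ := hT.1 X hX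
      exact ⟨γ • j, fun _ => ⟨j, hj, rfl⟩⟩
    · exact ⟨j, fun h => absurd h hX⟩
  choose pt hpt using hpt
  choose bl hbl hblx using hcov
  refine Finset.card_le_mul_card_image_of_maps_to (s := T) (t := Q)
    (f := fun X => bl (pt X)) (fun X _ => hbl _) (a + 2) ?_
  intro C hC
  set F := T.filter (fun X => bl (pt X) = C) with hF
  rcases F.eq_empty_or_nonempty with he | hFne
  · rw [he]; simp
  obtain ⟨X0, hX0, hmin⟩ := F.exists_min_image pt hFne
  obtain ⟨X1, hX1, hmax⟩ := F.exists_max_image pt hFne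
  have hFT : ∀ X ∈ F, X ∈ T := fun X hX => (Finset.mem_filter.1 hX).1
  have hFC : ∀ X ∈ F, pt X ∈ C := fun X hX => by
    have h := (Finset.mem_filter.1 hX).2
    rw [← h]
    exact hblx _
  set F' := (F.erase X0).erase X1 with hF'
  have hF'sub : F' ⊆ T := fun X hX =>
    hFT X (Finset.mem_of_mem_erase (Finset.mem_of_mem_erase hX))
  have hins : ∀ X ∈ F', X ⊆ C := by
    intro X hX y hy
    obtain ⟨hne1, hX'⟩ := Finset.mem_erase.1 hX
    obtain ⟨hne0, hXF⟩ := Finset.mem_erase.1 hX'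
    have hXT := hFT X hXF
    have hxX := hpt X hXT
    have h0 := hpt X0 (hFT X0 hX0)
    have h1 := hpt X1 (hFT X1 hX1)
    have hd0 := hT.2 X hXT X0 (hFT X0 hX0) hne0
    have hd1 := hT.2 X hXT X1 (hFT X1 hX1) hne1
    have hlow : pt X0 ≤ y := by
      by_contra hy0
      rw [not_le] at hy0
      exact Set.disjoint_left.1 hd0 ((hT.ord hXT).out hy hxX ⟨hy0.le, hmin X hXF⟩) h0
    have hhigh : y ≤ pt X1 := by
      by_contra hy0
      rw [not_le] at hy0
      exact Set.disjoint_left.1 hd1 ((hT.ord hXT).out hxX hy ⟨hmax X hXF, hy0.le⟩) h1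
    exact (hconv C hC).out (hFC X0 hX0) (hFC X1 hX1) ⟨hlow, hhigh⟩
  have e1 := le_cnt hb ((hT.mono hF'sub).restrict hins)
  have e2 := ha C hC
  have h1 := Finset.pred_card_le_card_erase (s := F) (a := X0)
  have h2 := Finset.pred_card_le_card_erase (s := F.erase X0) (a := X1)
  rw [← hF'] at h2
  omega

end

variable {I : Set (Set K)} (hI : Std Γ I)

include hI

theorem Std.nonempty {J : Set K} (hJ : J ∉ I) : J.Nonempty := by
  rw [Set.nonempty_iff_ne_empty]
  rintro rfl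
  exact hJ hI.empty

theorem Std.cnt_zero {J A : Set K} (hJ : J ∉ I) {b : ℕ} (hb : ∀ T, Pk Γ J univ T → T.card ≤ b)
    (hA : A ∈ I) : cnt Γ J A = 0 := by
  obtain ⟨T, hT, hc⟩ := exists_cnt hb A
  rw [← hc, Finset.card_eq_zero, Finset.eq_empty_iff_forall_notMem]
  intro X hX
  obtain ⟨⟨γ, hγ, rfl⟩, hXA⟩ := hT.1 X hX
  exact hI.not_mem_im hJ γ (hI.ii.sub A hA _ hXA)

/-- **Step (4).** -/
theorem Std.exists_F (hub : ∀ n : ℕ, ∃ J : Set K, J ∉ I ∧ J.OrdConnected ∧
      ∃ T, Pk Γ J univ T ∧ n ≤ T.card) :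
    ∃ F : K → ℝ, Monotone F ∧ (∀ x, 0 ≤ F x ∧ F x ≤ 1) ∧
      (∀ t, 0 ≤ t → t < 1 → ∀ ε > 0, ∃ y, t < F y ∧ F y < t + ε) ∧
      (∀ (g : Γ) C, Gd g C → StrictMonoOn (fun y => g • y) C → ∃ τ, ∀ y ∈ C, F (g • y) = F y + τ) ∧
      (∀ (g : Γ) C, Gd g C → StrictAntiOn (fun y => g • y) C → ∃ κ, ∀ y ∈ C, F (g • y) = κ - F y) ∧
      ∀ J : Set K, J.OrdConnected → J ∉ I → ∃ a ∈ J, ∃ b ∈ J, F a < F b := by
  choose J hJI hJc S hS hn using hub
  choose b hb using fun n => hI.bound (hJI n) (hJc n)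
  have hne : ∀ n, (J n).Nonempty := fun n => hI.nonempty (hJI n)
  let c : ℕ → Set K → ℕ := fun n A => cnt Γ (J n) A
  have hcle : ∀ n A, c n A ≤ c n univ := fun n A => cnt_mono (hb n) (subset_univ A)
  have hcge : ∀ n, n ≤ c n univ := fun n => (hn n).trans (le_cnt (hb n) (hS n))
  let 𝒰 : Ultrafilter ℕ := hyperfilter ℕ
  have hU : (𝒰 : Filter ℕ) ≤ atTop :=
    (Filter.hyperfilter_le_cofinite).trans Nat.cofinite_eq_atTop.le
  have hcinf : Tendsto (fun n => (c n univ : ℝ)) 𝒰 atTop :=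
    tendsto_atTop_mono (fun n => Nat.cast_le.2 (hcge n)) (tendsto_natCast_atTop_atTop.mono_left hU)
  have hev : ∀ᶠ n in (𝒰 : Filter ℕ), (0 : ℝ) < c n univ := hcinf.eventually_gt_atTop 0
  have hlim : ∀ A : Set K, ∃ x ∈ Icc (0 : ℝ) 1,
      Tendsto (fun n => (c n A : ℝ) / c n univ) 𝒰 (𝓝 x) := by
    intro A
    have h1 : ((𝒰.map (fun n => (c n A : ℝ) / c n univ) : Ultrafilter ℝ) : Filter ℝ) ≤
        𝓟 (Icc (0 : ℝ) 1) := by
      rw [Filter.le_principal_iff]
      refine Filter.mem_map.2 (Filter.univ_mem' fun n => ?_)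
      refine ⟨div_nonneg (Nat.cast_nonneg _) (Nat.cast_nonneg _), ?_⟩
      exact div_le_one_of_le₀ (Nat.cast_le.2 (hcle n A)) (Nat.cast_nonneg _)
    obtain ⟨x, hx, hx'⟩ := (isCompact_iff_ultrafilter_le_nhds.1 isCompact_Icc) _ h1
    exact ⟨x, hx, hx'⟩
  choose μ hμ01 hμ using hlim
  refine exists_F_of_mu (Γ := Γ) (I := I) μ (fun A => (hμ01 A).1) ?_ ?_ ?_ ?_ ?_ ?_
  · intro A B hAB
    refine le_of_tendsto_of_tendsto (hμ A) (hμ B) (Eventually.of_forall fun n => ?_)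
    exact div_le_div_of_nonneg_right (Nat.cast_le.2 (cnt_mono (hb n) hAB)) (Nat.cast_nonneg _)
  · refine tendsto_nhds_unique (hμ univ) (tendsto_const_nhds.congr' ?_)
    filter_upwards [hev] with n h
    exact (div_self h.ne').symm
  · intro A B hAB
    have h1 : Tendsto (fun n => (c n (A ∪ B) : ℝ) / c n univ - ((c n A : ℝ) / c n univ +
        (c n B : ℝ) / c n univ)) 𝒰 (𝓝 (μ (A ∪ B) - (μ A + μ B))) :=
      (hμ _).sub ((hμ A).add (hμ B))
    have h2 : Tendsto (fun n => ((c n univ : ℝ))⁻¹) 𝒰 (𝓝 0) := tendsto_inv_atTop_zero.comp hcinf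
    have h3 : Tendsto (fun n => (c n (A ∪ B) : ℝ) / c n univ - ((c n A : ℝ) / c n univ +
        (c n B : ℝ) / c n univ)) 𝒰 (𝓝 0) := by
      refine tendsto_of_tendsto_of_tendsto_of_le_of_le' tendsto_const_nhds h2
        (Eventually.of_forall fun n => ?_) (Eventually.of_forall fun n => ?_)
      · have e : (c n A : ℝ) + c n B ≤ c n (A ∪ B) := by
          exact_mod_cast cnt_add_le (hb n) (hne n) hAB
        rw [← add_div, ← sub_div]
        exact div_nonneg (by linarith) (Nat.cast_nonneg _)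
      · have e : (c n (A ∪ B) : ℝ) ≤ c n A + c n B + 1 := by
          exact_mod_cast cnt_split (hb n) hAB
        rw [← add_div, ← sub_div, inv_eq_one_div]
        exact div_le_div_of_nonneg_right (by linarith) (Nat.cast_nonneg _)
    have := tendsto_nhds_unique h1 h3
    linarith
  · intro g A hg
    refine tendsto_nhds_unique (hμ (im g A)) ((hμ A).congr fun n => ?_)
    change (c n A : ℝ) / c n univ = (c n (im g A) : ℝ) / c n univ
    have : c n (im g A) = c n A := cnt_im (hb n) hg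
    rw [this]
  · intro η hη
    obtain ⟨m, hm⟩ := exists_nat_gt (1 / η)
    have hmpos : (0 : ℝ) < m := lt_trans (by positivity) hm
    have hJm : μ (J m) ≤ η := by
      refine le_of_tendsto (hμ (J m)) (Eventually.of_forall fun n => ?_)
      have e1 : (S m).card * c n (J m) ≤ c n univ := cnt_mul (hb n) (hne n) (hS m)
      have e2 : m * c n (J m) ≤ c n univ := (Nat.mul_le_mul_right _ (hn m)).trans e1
      have e3 : (m : ℝ) * c n (J m) ≤ c n univ := by exact_mod_cast e2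
      have e4 : (1 : ℝ) < m * η := by
        rw [div_lt_iff₀ hη] at hm
        exact hm
      rcases Nat.eq_zero_or_pos (c n univ) with h | h
      · rw [h]; simp [hη.le]
      · have h' : (0 : ℝ) < c n univ := by exact_mod_cast h
        rw [div_le_iff₀ h']
        have e5 : (0 : ℝ) ≤ c n (J m) := Nat.cast_nonneg _
        nlinarith
    obtain ⟨Q, hQ, hQc, hQg⟩ := hI.blocks (hJI m) (hJc m)
    refine ⟨hQ.toFinset, fun x => ?_, fun C hC => ?_⟩
    · obtain ⟨C, hC, hx⟩ := hQc x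
      exact ⟨C, hQ.mem_toFinset.2 hC, hx⟩
    · have hC' := hQg C (hQ.mem_toFinset.1 hC)
      refine ⟨hC'.1, ?_⟩
      refine le_trans ?_ hJm
      refine le_of_tendsto_of_tendsto (hμ C) (hμ (J m)) (Eventually.of_forall fun n => ?_)
      refine div_le_div_of_nonneg_right (Nat.cast_le.2 ?_) (Nat.cast_nonneg _)
      rcases hC'.2 with h | ⟨δ, hδ, hδJ⟩
      · have : c n C = 0 := hI.cnt_zero (hJI n) (hb n) h
        change c n C ≤ _
        rw [this]; exact Nat.zero_le _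
      · have e1 := cnt_im (hb n) hδ
        have e2 := cnt_mono (hb n) hδJ
        rw [e1] at e2
        exact e2
  · intro J' hJ'c hJ'I
    obtain ⟨Q, hQ, hQc, hQg⟩ := hI.blocks hJ'I hJ'c
    have hbound : ∀ n, (c n univ : ℝ) ≤ (c n J' + 2) * hQ.toFinset.card := by
      intro n
      have := cnt_cover (hb n) (hne n) (Q := hQ.toFinset) (a := c n J')
        (fun x => by
          obtain ⟨C, hC, hx⟩ := hQc x
          exact ⟨C, hQ.mem_toFinset.2 hC, hx⟩)
        (fun C hC => (hQg C (hQ.mem_toFinset.1 hC)).1)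
        (fun C hC => by
          rcases (hQg C (hQ.mem_toFinset.1 hC)).2 with h | ⟨δ, hδ, hδJ⟩
          · have : c n C = 0 := hI.cnt_zero (hJI n) (hb n) h
            change c n C ≤ _
            rw [this]; exact Nat.zero_le _
          · have e1 := cnt_im (hb n) hδ
            have e2 := cnt_mono (hb n) hδJ
            rw [e1] at e2
            exact e2)
      exact_mod_cast this
    have h1 : Tendsto (fun n => ((c n J' : ℝ) / c n univ + 2 * (c n univ : ℝ)⁻¹) *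
        hQ.toFinset.card) 𝒰 (𝓝 ((μ J' + 2 * 0) * hQ.toFinset.card)) :=
      ((hμ J').add ((tendsto_inv_atTop_zero.comp hcinf).const_mul 2)).mul_const _
    have h2 : (1 : ℝ) ≤ (μ J' + 2 * 0) * hQ.toFinset.card := by
      refine ge_of_tendsto h1 ?_
      filter_upwards [hev] with n h
      have e := hbound n
      rw [← div_eq_mul_inv, ← add_div, div_mul_eq_mul_div, le_div_iff₀ h]
      linarith
    by_contra hc
    have h3 : μ J' = 0 := le_antisymm (not_lt.1 hc) (hμ01 J').1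
    rw [h3] at h2
    norm_num at h2

end Vale.Agent.P192.PM
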