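import Vale.Agent.P192.H491.Sect

/-!
# P192: finite-state automorphisms of polynomial activity

For a finite set `A` of finite-state automorphisms of polynomial activity of the tree of words
over a finite alphabet `X`, there are `m ≥ 1` and a list of states containing `A` which is
triangular for the action on the words over the alphabet of words of length `m`.
-/

namespace Vale.Agent.P192

variable {X : Type*}

/-- `g` has finitely many sections. -/
def FiniteState (g : TreeAut X) : Prop := (Set.range (sect g)).Finite

/-- The number of words of length `n` with nontrivial section is polynomially bounded. -/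
def PolyActivity (g : TreeAut X) : Prop :=
  ∃ C k : ℕ, ∀ n : ℕ, {v : List X | v.length = n ∧ sect g v ≠ 1}.ncard ≤ C * (n + 1) ^ k

theorem growth (C k a r : ℕ) : ∃ n : ℕ, C * (a + r * n + 1) ^ k < 2 ^ n := by
  have h := tendsto_pow_const_div_const_pow_of_one_lt k (one_lt_two : (1 : ℝ) < 2)
  set D : ℝ := (C : ℝ) * ((a : ℝ) + r + 1) ^ k with hD
  have hD0 : 0 ≤ D := by positivity
  have h1 : ∀ᶠ n : ℕ in Filter.atTop, (n : ℝ) ^ k / 2 ^ n < 1 / (D + 1) :=
    h.eventually (gt_mem_nhds (by positivity))
  obtain ⟨n, hn, hn1⟩ := (h1.and (Filter.eventually_ge_atTop 1)).exists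
  refine ⟨n, ?_⟩
  have hn1' : (1 : ℝ) ≤ n := by exact_mod_cast hn1
  have h2 : (0 : ℝ) < 2 ^ n := by positivity
  rw [div_lt_div_iff₀ h2 (by positivity), one_mul] at hn
  have h3 : ((a : ℝ) + r * n + 1) ≤ (a + r + 1) * n := by
    have ha : (0 : ℝ) ≤ a := Nat.cast_nonneg a
    nlinarith
  have h4 : ((a : ℝ) + r * n + 1) ^ k ≤ ((a + r + 1) * n) ^ k :=
    pow_le_pow_left₀ (by positivity) h3 k
  have h5 : (C : ℝ) * ((a : ℝ) + r * n + 1) ^ k ≤ D * (n : ℝ) ^ k := by
    rw [hD, mul_assoc, ← mul_pow]
    exact mul_le_mul_of_nonneg_left h4 (Nat.cast_nonneg C)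
  have h6 : (0 : ℝ) ≤ (n : ℝ) ^ k := by positivity
  have h7 : (C : ℝ) * ((a : ℝ) + r * n + 1) ^ k < 2 ^ n := by nlinarith
  exact_mod_cast h7

theorem returns_card [Finite X] (q : TreeAut X) (r : ℕ) (a b : List X) (ha : a.length = r)
    (hb : b.length = r) (hab : a ≠ b) (hqa : sect q a = q) (hqb : sect q b = q) (n : ℕ) :
    2 ^ n ≤ {v : List X | v.length = r * n ∧ sect q v = q}.ncard := by
  induction n with
  | zero =>
    have : {v : List X | v.length = r * 0 ∧ sect q v = q} = {[]} := by
      ext v
      rw [Set.mem_singleton_iff, mul_zero]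
      show v.length = 0 ∧ sect q v = q ↔ v = []
      rw [List.length_eq_zero_iff]
      constructor
      · exact fun h => h.1
      · rintro rfl
        exact ⟨rfl, sect_nil q⟩
    rw [this, Set.ncard_singleton, pow_zero]
  | succ n ih =>
    set M : Set (List X) := {v : List X | v.length = r * n ∧ sect q v = q} with hM
    have hfin : ∀ k : ℕ, {v : List X | v.length = k ∧ sect q v = q}.Finite := fun k =>
      (List.finite_length_eq X k).subset fun v hv => hv.1
    have hMf : M.Finite := hfin _
    have hinj : ∀ c : List X, Function.Injective (fun v : List X => c ++ v) := fun c v w h =>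
      List.append_cancel_left h
    have hdisj : Disjoint ((fun v => a ++ v) '' M) ((fun v => b ++ v) '' M) := by
      rw [Set.disjoint_left]
      rintro _ ⟨v, _, rfl⟩ ⟨w, _, hw⟩
      exact hab (List.append_inj hw (by rw [ha, hb])).1.symm
    have hsub : (fun v => a ++ v) '' M ∪ (fun v => b ++ v) '' M ⊆
        {v : List X | v.length = r * (n + 1) ∧ sect q v = q} := by
      rintro _ (⟨v, hv, rfl⟩ | ⟨v, hv, rfl⟩)
      · refine ⟨?_, ?_⟩
        · simp only [List.length_append, ha, hv.1]
          ring
        · show sect q (a ++ v) = q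
          rw [sect_append, hqa, hv.2]
      · refine ⟨?_, ?_⟩
        · simp only [List.length_append, hb, hv.1]
          ring
        · show sect q (b ++ v) = q
          rw [sect_append, hqb, hv.2]
    calc 2 ^ (n + 1) = 2 ^ n + 2 ^ n := by ring
      _ ≤ M.ncard + M.ncard := Nat.add_le_add ih ih
      _ = ((fun v => a ++ v) '' M).ncard + ((fun v => b ++ v) '' M).ncard := by
          rw [Set.ncard_image_of_injective _ (hinj a), Set.ncard_image_of_injective _ (hinj b)]
      _ = ((fun v => a ++ v) '' M ∪ (fun v => b ++ v) '' M).ncard :=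
          (Set.ncard_union_eq hdisj (hMf.image _) (hMf.image _)).symm
      _ ≤ _ := Set.ncard_le_ncard hsub (hfin _)

/-- A nontrivial state of an automorphism of polynomial activity has at most one return word of
each length. -/
theorem return_unique [Finite X] (g : TreeAut X) (hg : PolyActivity g) (u : List X)
    (hu : sect g u ≠ 1) (a b : List X) (hab : a.length = b.length)
    (ha : sect (sect g u) a = sect g u) (hb : sect (sect g u) b = sect g u) : a = b := by
  by_contra hne
  obtain ⟨C, k, hC⟩ := hg
  obtain ⟨n, hn⟩ := growth C k u.length a.length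
  have h1 := returns_card (sect g u) a.length a b rfl hab.symm hne ha hb n
  have h2 := hC (u.length + a.length * n)
  have h3 : {v : List X | v.length = a.length * n ∧ sect (sect g u) v = sect g u}.ncard ≤
      {v : List X | v.length = u.length + a.length * n ∧ sect g v ≠ 1}.ncard := by
    refine Set.ncard_le_ncard_of_injOn (fun v => u ++ v) ?_ ?_
      ((List.finite_length_eq X _).subset fun v hv => hv.1)
    · intro v hv
      refine ⟨?_, ?_⟩
      · simp only [List.length_append, hv.1]
      · show sect g (u ++ v) ≠ 1
        rw [sect_append, hv.2]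
        exact hu
    · intro v _ w _ h
      exact List.append_cancel_left h
  exact absurd (h1.trans (h3.trans h2)) (not_le.2 hn)

/-- The number of sections. -/
noncomputable def rank (q : TreeAut X) : ℕ := (Set.range (sect q)).ncard

theorem range_sect_subset (q : TreeAut X) (v : List X) :
    Set.range (sect (sect q v)) ⊆ Set.range (sect q) := by
  rintro _ ⟨w, rfl⟩
  exact ⟨v ++ w, sect_append q v w⟩

theorem FiniteState.sect {q : TreeAut X} (h : FiniteState q) (v : List X) :
    FiniteState (sect q v) :=
  Set.Finite.subset h (range_sect_subset q v)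

theorem rank_sect_le {q : TreeAut X} (h : FiniteState q) (v : List X) :
    rank (sect q v) ≤ rank q :=
  Set.ncard_le_ncard (range_sect_subset q v) h

/-- A section of the same rank has the original state as a section. -/
theorem exists_return {q : TreeAut X} (h : FiniteState q) (v : List X)
    (hr : ¬ rank (sect q v) < rank q) : ∃ w, sect (sect q v) w = q := by
  have h1 : Set.range (sect (sect q v)) = Set.range (sect q) :=
    Set.eq_of_subset_of_ncard_le (range_sect_subset q v) (not_lt.1 hr) h
  have h2 : q ∈ Set.range (sect q) := ⟨[], sect_nil q⟩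
  rw [← h1] at h2
  exact h2

theorem exists_return_mul (q : TreeAut X) (u : List X) (hu : sect q u = q) (t : ℕ) :
    ∃ w : List X, w.length = u.length * t ∧ sect q w = q := by
  induction t with
  | zero => exact ⟨[], by simp, sect_nil q⟩
  | succ t ih =>
    obtain ⟨w, hw, hq⟩ := ih
    refine ⟨u ++ w, ?_, ?_⟩
    · rw [List.length_append, hw]
      ring
    · rw [sect_append, hu, hq]

/-- Finitely many finite-state automorphisms of polynomial activity are contained in a
triangular list of states, over the alphabet of words of a suitable length `m`. -/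
theorem exists_tri [Finite X] (A : Set (TreeAut X)) (hA : A.Finite)
    (hfs : ∀ g ∈ A, FiniteState g) (hpa : ∀ g ∈ A, PolyActivity g) :
    ∃ m : ℕ, 1 ≤ m ∧ ∃ l : List (TreeAut X), (∀ g ∈ A, g ∈ l) ∧ (ssPow X m).Tri l := by
  classical
  -- the finite set of all states
  set Q : Set (TreeAut X) := ⋃ g ∈ A, Set.range (sect g) with hQ
  have hQf : Q.Finite := hA.biUnion hfs
  have hAQ : ∀ g ∈ A, g ∈ Q := fun g hg =>
    Set.mem_biUnion hg ⟨[], sect_nil g⟩
  have hQs : ∀ q ∈ Q, ∀ v, sect q v ∈ Q := by
    intro q hq v
    obtain ⟨g, hg, u, rfl⟩ := Set.mem_iUnion₂.1 hq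
    exact Set.mem_biUnion hg ⟨u ++ v, sect_append g u v⟩
  have hQfs : ∀ q ∈ Q, FiniteState q := by
    intro q hq
    obtain ⟨g, hg, u, rfl⟩ := Set.mem_iUnion₂.1 hq
    exact (hfs g hg).sect u
  have huniq : ∀ q ∈ Q, q ≠ 1 → ∀ a b : List X, a.length = b.length → sect q a = q →
      sect q b = q → a = b := by
    intro q hq h1 a b hab ha hb
    obtain ⟨g, hg, u, rfl⟩ := Set.mem_iUnion₂.1 hq
    exact return_unique g (hpa g hg) u h1 a b hab ha hb
  -- the length
  set r : TreeAut X → ℕ := fun q =>
    if h : ∃ u : List X, u ≠ [] ∧ sect q u = q then h.choose.length else 1 with hr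
  have hr1 : ∀ q, 1 ≤ r q := by
    intro q
    by_cases h : ∃ u : List X, u ≠ [] ∧ sect q u = q
    · have : r q = h.choose.length := dif_pos h
      rw [this]
      exact List.length_pos_iff.2 h.choose_spec.1
    · have : r q = 1 := dif_neg h
      rw [this]
  set m : ℕ := ∏ q ∈ hQf.toFinset, r q with hm
  have hm1 : 1 ≤ m := Finset.one_le_prod' fun q _ => hr1 q
  have hret : ∀ q ∈ Q, (∃ u : List X, u ≠ [] ∧ sect q u = q) →
      ∃ w : List X, w.length = m ∧ sect q w = q := by
    intro q hq h
    have h1 : r q = h.choose.length := dif_pos h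
    have h2 : r q ∣ m := Finset.dvd_prod_of_mem r (hQf.mem_toFinset.2 hq)
    obtain ⟨t, ht⟩ := h2
    obtain ⟨w, hw, hw2⟩ := exists_return_mul q h.choose h.choose_spec.2 t
    exact ⟨w, by rw [hw, ht, h1], hw2⟩
  -- sections at words of length `m`
  have hsec : ∀ q ∈ Q, q ≠ 1 → ∀ y : List X, y.length = m → sect q y ≠ q →
      rank (sect q y) < rank q := by
    intro q hq h1 y hy hne
    by_contra hlt
    obtain ⟨w, hw⟩ := exists_return (hQfs q hq) y hlt
    have hyw : sect q (y ++ w) = q := by rw [sect_append, hw]
    have hyw0 : y ++ w ≠ [] := by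
      intro h0
      have := congrArg List.length h0
      rw [List.length_append, hy, List.length_nil] at this
      omega
    obtain ⟨u, hu, hqu⟩ := hret q hq ⟨y ++ w, hyw0, hyw⟩
    have h2 : u ++ (y ++ w) = (y ++ w) ++ u := by
      apply huniq q hq h1
      · simp only [List.length_append]
        omega
      · rw [sect_append, hqu, hyw]
      · rw [sect_append, hyw, hqu]
    rw [List.append_assoc] at h2
    have h3 : u = y := (List.append_inj h2 (by rw [hu, hy])).1
    exact hne (h3 ▸ hqu)
  refine ⟨m, hm1, ?_⟩
  have main : ∀ F : Finset (TreeAut X), (∀ q ∈ F, q ∈ Q) →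
      (∀ q ∈ F, ∀ p ∈ Q, rank p < rank q → p ∈ F) →
      ∃ l : List (TreeAut X), (∀ x, x ∈ l ↔ x ∈ F) ∧ (ssPow X m).Tri l := by
    intro F
    induction F using Finset.induction_on_max_value (rank : TreeAut X → ℕ) with
    | empty =>
      intro _ _
      exact ⟨[], by simp, trivial⟩
    | insert a s has hmax ih =>
      intro hsQ hcl
      obtain ⟨l, hl, htri⟩ := ih (fun q hq => hsQ q (Finset.mem_insert_of_mem hq)) (by
        intro q hq p hp hlt
        rcases Finset.mem_insert.1 (hcl q (Finset.mem_insert_of_mem hq) p hp hlt) with h | h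
        · rw [h] at hlt
          exact absurd (hmax q hq) (not_le.2 hlt)
        · exact h)
      refine ⟨a :: l, ?_, htri, ?_⟩
      · intro x
        rw [List.mem_cons, hl, Finset.mem_insert]
      · have haQ : a ∈ Q := hsQ a (Finset.mem_insert_self a s)
        have hlow : ∀ v : List X, rank (sect a v) < rank a →
            sect a v ∈ Subgroup.closure {x | x ∈ l} := by
          intro v hv
          apply Subgroup.subset_closure
          show sect a v ∈ l
          rw [hl]
          rcases Finset.mem_insert.1
            (hcl a (Finset.mem_insert_self a s) _ (hQs a haQ v) hv) with h | h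
          · rw [h] at hv
            exact absurd hv (lt_irrefl _)
          · exact h
        by_cases ha1 : a = 1
        · left
          intro y
          rw [ssPow_sec, ha1, sect_one]
          exact Subgroup.one_mem _
        · by_cases hy : ∃ y : {v : List X // v.length = m}, sect a y.1 = a
          · right
            obtain ⟨y, hy⟩ := hy
            refine ⟨y, hy, ?_⟩
            intro y' hne
            rw [ssPow_sec]
            apply hlow
            apply hsec a haQ ha1 y'.1 y'.2
            intro h
            exact hne (Subtype.ext (huniq a haQ ha1 y'.1 y.1 (by rw [y'.2, y.2]) h hy))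
          · left
            intro y
            rw [ssPow_sec]
            apply hlow
            apply hsec a haQ ha1 y.1 y.2
            intro h
            exact hy ⟨y, h⟩
  obtain ⟨l, hl, htri⟩ := main hQf.toFinset (fun q hq => hQf.mem_toFinset.1 hq)
    (fun q _ p hp _ => hQf.mem_toFinset.2 hp)
  exact ⟨l, fun g hg => (hl g).2 (hQf.mem_toFinset.2 (hAQ g hg)), htri⟩

end Vale.Agent.P192
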